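import Vale.Agent.P178.H924.Comp

/-! # Naturality, and detection of classes by simplicial cocycles -/

namespace Vale.Agent.P178.H924

open CategoryTheory Simplicial Opposite Topology Set
open Vale.Agent.P246.T

variable {X Y : SSet.{0}}

/-- the continuous map of realizations -/
noncomputable def rmap (f : X ⟶ Y) : C(Re X, Re Y) := (SSet.toTop.map f).hom

theorem rmap_chr (f : X ⟶ Y) {n : ℕ} (x : X _⦋n⦌) :
    (rmap f).comp (chr X x) = chr Y (f.app (op ⦋n⦌) x) := by
  have h := sSetTopAdj.unit.naturality f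
  have h1 := congrArg (fun g => TopCat.toSSetObjEquiv _ (op ⦋n⦌) (g.app (op ⦋n⦌) x)) h
  exact h1.symm

theorem rmap_chr_apply (f : X ⟶ Y) {n : ℕ} (x : X _⦋n⦌) (t : Dl (n + 1)) :
    rmap f (chr X x t) = chr Y (f.app (op ⦋n⦌) x) t :=
  congrArg (fun g : C(Dl (n + 1), Re Y) => g t) (rmap_chr f x)

theorem rmap_id : rmap (𝟙 X) = ContinuousMap.id (Re X) := by
  rw [rmap, CategoryTheory.Functor.map_id]; rfl

theorem rmap_comp {Z : SSet.{0}} (f : X ⟶ Y) (g : Y ⟶ Z) : rmap (f ≫ g) = (rmap g).comp (rmap f) := by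
  rw [rmap, CategoryTheory.Functor.map_comp]; rfl

/-- the comparison is natural -/
theorem push_can (f : X ⟶ Y) (n : ℕ) (c : SCh X n) :
    push (rmap f) n (can X n c) = can Y n (spush f n c) := by
  have : (push (rmap f) n).comp (can X n) = (can Y n).comp (spush f n) := by
    refine Finsupp.lhom_ext fun x a => ?_
    rw [LinearMap.comp_apply, LinearMap.comp_apply, can_single, push_single, spush_single,
      can_single, rmap_chr]
  exact LinearMap.congr_fun this c

/-- the value of a cochain on a chain -/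
noncomputable def sev {M : Type*} [AddCommGroup M] {n : ℕ} (φ : X _⦋n⦌ → M) : SCh X n →ₗ[ℤ] M :=
  Finsupp.linearCombination ℤ φ

theorem sev_single {M : Type*} [AddCommGroup M] {n : ℕ} (φ : X _⦋n⦌ → M) (x : X _⦋n⦌) (a : ℤ) :
    sev φ (Finsupp.single x a) = a • φ x := Finsupp.linearCombination_single ℤ a x

theorem sev_sbd {M : Type*} [AddCommGroup M] {n : ℕ} {φ : X _⦋n⦌ → M}
    (hφ : ∀ y : X _⦋n + 1⦌, ∑ i : Fin (n + 2), ((-1 : ℤ) ^ (i : ℕ)) • φ (X.δ i y) = 0)
    (y : SCh X (n + 1)) : sev φ (sbd X n y) = 0 := by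
  have : (sev φ).comp (sbd X n) = 0 := by
    refine Finsupp.lhom_ext fun y a => ?_
    rw [LinearMap.comp_apply, sbd_single, map_sum, LinearMap.zero_apply]
    simp only [sev_single, mul_smul]
    rw [← Finset.smul_sum, hφ, smul_zero]
  exact LinearMap.congr_fun this y

/-- **Detection**: if the simplicial cycle `x` bounds in the realization, then all cocycles vanish
on `x`. -/
theorem detect {M : Type*} [AddCommGroup M] {n : ℕ} {φ : X _⦋n⦌ → M}
    (hφ : ∀ y : X _⦋n + 1⦌, ∑ i : Fin (n + 2), ((-1 : ℤ) ^ (i : ℕ)) • φ (X.δ i y) = 0)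
    {x : SCh X n} (hx : SCyc n x) {b : Ch (n + 1) (Re X)} (hb : bd n b = can X n x) :
    sev φ x = 0 := by
  obtain ⟨y, rfl⟩ := comp_inj X n x hx b hb
  exact sev_sbd hφ y

/-- vanishing of the singular homology from the vanishing of the simplicial homology -/
theorem sing_zero {n : ℕ} (h : ∀ x : SCh X (n + 1), sbd X n x = 0 → ∃ y, sbd X (n + 1) y = x)
    (c : Ch (n + 1) (Re X)) (hc : bd n c = 0) : ∃ b : Ch (n + 2) (Re X), bd (n + 1) b = c := by
  obtain ⟨x, hx, b, hb⟩ := comp_surj X (n + 1) c hc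
  obtain ⟨y, rfl⟩ := h x hx
  refine ⟨b + can X (n + 2) y, ?_⟩
  rw [map_add, hb, bd_can]
  abel

end Vale.Agent.P178.H924
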