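import Vale.Agent.P178.H924.Deg

/-! # Relative cycles -/

namespace Vale.Agent.P178.H924

variable {X : SSet.{0}}

/-- the boundary of `c` lies in `A` -/
def SRC (A : X.Subcomplex) : (k : ℕ) → SCh X k → Prop
  | 0, _ => True
  | k + 1, c => sbd X k c ∈ SC X A k

/-- `c` is a simplicial cycle -/
def SCyc : (k : ℕ) → SCh X k → Prop
  | 0, _ => True
  | k + 1, c => sbd X k c = 0

theorem sbd_sbd (X : SSet.{0}) (n : ℕ) (c : SCh X (n + 2)) : sbd X n (sbd X (n + 1) c) = 0 := by
  rw [← dd_eq, ← dd_eq]
  have h := ((AlgebraicTopology.AlternatingFaceMapComplex.obj (ZS X)).d_comp_d (n + 2) (n + 1) n)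
  have h2 : (dd X n).comp (dd X (n + 1)) = 0 := congrArg ModuleCat.Hom.hom h
  exact LinearMap.congr_fun h2 c

theorem SCyc.src {k : ℕ} {c : SCh X k} (h : SCyc k c) (A : X.Subcomplex) : SRC A k c := by
  cases k with
  | zero => trivial
  | succ k =>
    change sbd X k c ∈ _
    rw [show sbd X k c = 0 from h]; exact zero_mem _

theorem scyc_sbd (k : ℕ) (c : SCh X (k + 1)) : SCyc k (sbd X k c) := by
  cases k with
  | zero => trivial
  | succ k => exact sbd_sbd X k c

theorem SCyc.sub {k : ℕ} {c c' : SCh X k} (h : SCyc k c) (h' : SCyc k c') : SCyc k (c - c') := by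
  cases k with
  | zero => trivial
  | succ k =>
    change sbd X k (c - c') = 0
    rw [map_sub, show sbd X k c = 0 from h, show sbd X k c' = 0 from h', sub_zero]

end Vale.Agent.P178.H924
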