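import Vale.Agent.P178.H924.Skel

/-! # The cells of the geometric realization -/

namespace Vale.Agent.P178.H924

open CategoryTheory Simplicial Opposite Topology Set
open Vale.Agent.P246.T (Dl face Dk bdk expd CellData)

variable {X : SSet.{0}}

/-- a homeomorphism of pairs -/
structure HomPair (n : ℕ) where
  h : Dl (n + 1) ≃ₜ Dk n
  bd : ∀ x : Dl (n + 1), ‖(h x : Fin n → ℝ)‖ = 1 ↔ ¬ Inr x

theorem exists_homPair (n : ℕ) : Nonempty (HomPair n) := by
  obtain ⟨h, hh⟩ := Vale.Agent.P246.T.CV.simplexBall n
  refine ⟨⟨h, fun x => ?_⟩⟩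
  rw [Inr]
  push Not
  exact (hh x).symm

/-- the characteristic map of a cell -/
noncomputable def cm {n : ℕ} (H : HomPair n) (σ : X.nonDegenerate n) : C(Dk n, Re X) :=
  (chr X σ.1).comp ⟨H.h.symm, H.h.symm.continuous⟩

theorem cm_apply {n : ℕ} (H : HomPair n) (σ : X.nonDegenerate n) (x : Dk n) :
    cm H σ x = chr X σ.1 (H.h.symm x) := rfl

theorem HomPair.inr {n : ℕ} (H : HomPair n) {x : Dk n} (hx : ‖(x : Fin n → ℝ)‖ < 1) :
    Inr (H.h.symm x) := by
  by_contra h
  have := (H.bd (H.h.symm x)).2 h
  rw [H.h.apply_symm_apply] at this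
  exact hx.ne this

theorem HomPair.lt {n : ℕ} (H : HomPair n) {t : Dl (n + 1)} (ht : Inr t) :
    ‖(H.h t : Fin n → ℝ)‖ < 1 := by
  refine lt_of_le_of_ne (mem_closedBall_zero_iff.1 (H.h t).2) fun h => ?_
  exact (H.bd t).1 h ht

theorem cellData {n : ℕ} (H : HomPair n) :
    CellData n (X.nonDegenerate n) (Bs X (n + 1)) (Bs X n) (cm H) where
  sub := Bs_mono (Nat.le_succ n)
  mem g x := chr_mem (Nat.lt_succ_self n) _ _
  bdry g x hx := by
    refine chr_bdry _ ?_
    change ¬ Inr (H.h.symm x)
    rw [← H.bd, H.h.apply_symm_apply]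
    exact hx
  int g x hx := by
    rw [cm_apply, chr_mem_iff g.2 (H.inr hx)]
    exact lt_irrefl n
  cover y hy := by
    obtain ⟨k, hk, x, t, rfl⟩ := hy
    obtain ⟨m, σ, u, hN⟩ := exists_nf x t
    rw [chr_nf hN]
    rcases (hN.le.trans (Nat.lt_succ_iff.1 hk)).lt_or_eq with h | rfl
    · exact Or.inl (chr_mem h _ _)
    · refine Or.inr ⟨⟨σ, hN.1⟩, H.h u, ?_⟩
      rw [cm_apply, H.h.symm_apply_apply]
  inj g g' x x' hx hx' he := by
    have h := chr_inj g.2 (H.inr hx) g'.2 (H.inr hx') he
    simp only [Sigma.mk.injEq, heq_eq_eq, Prod.mk.injEq, true_and] at h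
    exact ⟨Subtype.ext h.1, H.h.symm.injective h.2⟩
  openV g U hU hU' := by
    refine exists_open ?_ fun k hk x => ?_
    · rintro _ ⟨x, -, rfl⟩; exact chr_mem (Nat.lt_succ_self n) _ _
    · by_cases hx : k = n
      · subst hx
        by_cases hd : x ∈ X.nonDegenerate k
        · by_cases hg : x = g.1
          · have : chr X x ⁻¹' (cm H g '' U) = H.h ⁻¹' U := by
              ext t
              constructor
              · rintro ⟨y, hy, he⟩
                rw [cm_apply] at he
                have hy' := H.inr (hU' y hy)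
                have ht : Inr t := by
                  by_contra ht
                  have h1 := chr_bdry x ht
                  rw [← he, chr_mem_iff g.2 hy'] at h1
                  exact lt_irrefl _ h1
                have h := chr_inj g.2 hy' hd ht he
                simp only [Sigma.mk.injEq, heq_eq_eq, Prod.mk.injEq, true_and] at h
                rw [Set.mem_preimage, ← h.2, H.h.apply_symm_apply]
                exact hy
              · intro ht
                refine ⟨H.h t, ht, ?_⟩
                rw [cm_apply, H.h.symm_apply_apply, hg]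
            rw [this]
            exact hU.preimage H.h.continuous
          · have : chr X x ⁻¹' (cm H g '' U) = ∅ := by
              ext t
              simp only [Set.mem_empty_iff_false, iff_false]
              rintro ⟨y, hy, he⟩
              rw [cm_apply] at he
              have hy' := H.inr (hU' y hy)
              have ht : Inr t := by
                by_contra ht
                have h1 := chr_bdry x ht
                rw [← he, chr_mem_iff g.2 hy'] at h1
                exact lt_irrefl _ h1
              have h := chr_inj g.2 hy' hd ht he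
              simp only [Sigma.mk.injEq, heq_eq_eq, Prod.mk.injEq, true_and] at h
              exact hg h.1.symm
            rw [this]
            exact isOpen_empty
        · have : chr X x ⁻¹' (cm H g '' U) = ∅ := by
            ext t
            simp only [Set.mem_empty_iff_false, iff_false]
            rintro ⟨y, hy, he⟩
            rw [cm_apply] at he
            have hy' := H.inr (hU' y hy)
            have h1 := chr_degenerate ((X.mem_degenerate_iff_notMem_nonDegenerate x).2 hd) t
            rw [← he, chr_mem_iff g.2 hy'] at h1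
            exact lt_irrefl _ h1
          rw [this]
          exact isOpen_empty
      · have : chr X x ⁻¹' (cm H g '' U) = ∅ := by
          ext t
          simp only [Set.mem_empty_iff_false, iff_false]
          rintro ⟨y, hy, he⟩
          rw [cm_apply] at he
          have hy' := H.inr (hU' y hy)
          have h1 : chr X x t ∈ Bs X n := chr_mem (by omega) x t
          rw [← he, chr_mem_iff g.2 hy'] at h1
          exact lt_irrefl _ h1
        rw [this]
        exact isOpen_empty
  openW := by
    have hB : ∀ p ∈ Bs X n, ∀ (g : X.nonDegenerate n) (x : Dk n), cm H g x = p →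
        ‖(x : Fin n → ℝ)‖ = 1 := by
      intro p hp g x he
      rw [← H.h.apply_symm_apply x, H.bd]
      intro hx
      rw [← he, cm_apply, chr_mem_iff g.2 hx] at hp
      exact lt_irrefl _ hp
    refine exists_open (fun p hp => hp.1) fun k hk x => ?_
    by_cases hx : k = n ∧ x ∈ X.nonDegenerate k
    · obtain ⟨rfl, hd⟩ := hx
      have : chr X x ⁻¹' {y | y ∈ Bs X (k + 1) ∧
          ∀ (g : X.nonDegenerate k) (x : Dk k), cm H g x = y → 1 / 2 < ‖(x : Fin k → ℝ)‖} =
          H.h ⁻¹' {z | 1 / 2 < ‖(z : Fin k → ℝ)‖} := by
        ext t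
        constructor
        · rintro ⟨-, h⟩
          refine h ⟨x, hd⟩ (H.h t) ?_
          rw [cm_apply, H.h.symm_apply_apply]
        · intro ht
          refine ⟨chr_mem hk x t, fun g z hz => ?_⟩
          by_cases hi : Inr t
          · by_cases hz' : Inr (H.h.symm z)
            · rw [cm_apply] at hz
              have h := chr_inj g.2 hz' hd hi hz
              simp only [Sigma.mk.injEq, heq_eq_eq, Prod.mk.injEq, true_and] at h
              rw [← H.h.apply_symm_apply z, h.2]
              exact ht
            · rw [← H.h.apply_symm_apply z, (H.bd _).2 hz']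
              norm_num
          · rw [hB _ (chr_bdry x hi) g z hz]
            norm_num
      rw [this]
      exact (isOpen_lt continuous_const (by fun_prop)).preimage H.h.continuous
    · have : chr X x ⁻¹' {y | y ∈ Bs X (n + 1) ∧
          ∀ (g : X.nonDegenerate n) (x : Dk n), cm H g x = y → 1 / 2 < ‖(x : Fin n → ℝ)‖} =
          univ := by
        refine Set.eq_univ_of_forall fun t => ⟨chr_mem hk x t, fun g z hz => ?_⟩
        have h1 : chr X x t ∈ Bs X n := by
          by_cases hkn : k = n
          · subst hkn
            have hd : x ∉ X.nonDegenerate k := fun h => hx ⟨rfl, h⟩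
            exact chr_degenerate ((X.mem_degenerate_iff_notMem_nonDegenerate x).2 hd) t
          · exact chr_mem (by omega) x t
        rw [hB _ h1 g z hz]
        norm_num
      rw [this]
      exact isOpen_univ
  htpy := by
    classical
    have hcov : ∀ p : Bs X (n + 1), (p : Re X) ∉ Bs X n → ∃ (g : X.nonDegenerate n) (x : Dk n),
        ‖(x : Fin n → ℝ)‖ < 1 ∧ cm H g x = p := by
      rintro ⟨_, k, hk, x, t, rfl⟩ hp
      obtain ⟨m, σ, u, hN⟩ := exists_nf x t
      have hm : m = n := by
        have h1 := hN.le
        by_contra hmn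
        apply hp
        change chr X x t ∈ Bs X n
        rw [chr_nf hN]
        exact chr_mem (by omega) _ _
      subst hm
      refine ⟨⟨σ, hN.1⟩, H.h u, H.lt hN.2.1, ?_⟩
      rw [cm_apply, H.h.symm_apply_apply]
      exact (chr_nf hN).symm
    have hmem : ∀ (g : X.nonDegenerate n) (x : Dk n), cm H g x ∈ Bs X (n + 1) := fun g x =>
      chr_mem (Nat.lt_succ_self n) _ _
    choose γ ξ hξ hγ using hcov
    let r : unitInterval × Bs X (n + 1) → Bs X (n + 1) := fun q =>
      if h : (q.2 : Re X) ∈ Bs X n then q.2 else
        ⟨cm H (γ q.2 h) (expd n q.1 (ξ q.2 h)), hmem _ _⟩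
    have r1 : ∀ t (p : Bs X (n + 1)), (p : Re X) ∈ Bs X n → r (t, p) = p := fun t p hp =>
      dif_pos hp
    have r3 : ∀ t (p : Bs X (n + 1)) (hp : (p : Re X) ∉ Bs X n), r (t, p) =
      ⟨cm H (γ p hp) (expd n t (ξ p hp)), hmem _ _⟩ := fun t p hp => dif_neg hp
    have r2 : ∀ t g x, (r (t, ⟨cm H g x, hmem g x⟩) : Re X) = cm H g (expd n t x) := by
      intro t g x
      by_cases hx : ‖(x : Fin n → ℝ)‖ < 1
      · have hp : cm H g x ∉ Bs X n := by
          rw [cm_apply, chr_mem_iff g.2 (H.inr hx)]
          exact lt_irrefl n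
        rw [r3 t _ hp]
        have h1 := hγ ⟨cm H g x, hmem g x⟩ hp
        have h2 := hξ ⟨cm H g x, hmem g x⟩ hp
        have h := chr_inj (γ ⟨cm H g x, hmem g x⟩ hp).2 (H.inr h2) g.2 (H.inr hx) h1
        simp only [Sigma.mk.injEq, heq_eq_eq, Prod.mk.injEq, true_and] at h
        have e1 : γ ⟨cm H g x, hmem g x⟩ hp = g := Subtype.ext h.1
        have e2 : ξ ⟨cm H g x, hmem g x⟩ hp = x := H.h.symm.injective h.2
        change cm H (γ ⟨cm H g x, hmem g x⟩ hp) (expd n t (ξ ⟨cm H g x, hmem g x⟩ hp)) = _
        rw [e1, e2]
      · have hx' : ‖(x : Fin n → ℝ)‖ = 1 :=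
          le_antisymm (mem_closedBall_zero_iff.1 x.2) (not_lt.1 hx)
        have hp : cm H g x ∈ Bs X n := by
          refine chr_bdry _ ?_
          change ¬ Inr (H.h.symm x)
          rw [← H.bd, H.h.apply_symm_apply]
          exact hx'
        rw [r1 t _ hp, Vale.Agent.P246.T.CC.expd_bd n t x hx']
    have hc : Continuous r := by
      refine continuous_prod_of fun k hk x => ?_
      by_cases hx : k = n ∧ x ∈ X.nonDegenerate k
      · obtain ⟨rfl, hd⟩ := hx
        have : (fun q : unitInterval × Dl (k + 1) => r (q.1, ⟨chr X x q.2, chr_mem hk x q.2⟩)) =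
            fun q => ⟨cm H ⟨x, hd⟩ (expd k q.1 (H.h q.2)), hmem _ _⟩ := by
          funext q
          apply Subtype.ext
          have h1 := r2 q.1 ⟨x, hd⟩ (H.h q.2)
          have h2 : (⟨cm H ⟨x, hd⟩ (H.h q.2), hmem _ _⟩ : Bs X (k + 1)) =
              ⟨chr X x q.2, chr_mem hk x q.2⟩ := by
            apply Subtype.ext
            change cm H ⟨x, hd⟩ (H.h q.2) = chr X x q.2
            rw [cm_apply, H.h.symm_apply_apply]
          rw [h2] at h1
          exact h1
        rw [this]
        refine Continuous.subtype_mk ?_ _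
        exact (cm H ⟨x, hd⟩).continuous.comp ((Vale.Agent.P246.T.CC.continuous_expd k).comp
          (continuous_fst.prodMk (H.h.continuous.comp continuous_snd)))
      · have : (fun q : unitInterval × Dl (k + 1) => r (q.1, ⟨chr X x q.2, chr_mem hk x q.2⟩)) =
            fun q => ⟨chr X x q.2, chr_mem hk x q.2⟩ := by
          funext q
          refine r1 _ _ ?_
          by_cases hkn : k = n
          · subst hkn
            have hd : x ∉ X.nonDegenerate k := fun h => hx ⟨rfl, h⟩
            exact chr_degenerate ((X.mem_degenerate_iff_notMem_nonDegenerate x).2 hd) _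
          · exact chr_mem (by omega) x _
        rw [this]
        exact Continuous.subtype_mk ((chr X x).continuous.comp continuous_snd) _
    refine ⟨⟨r, hc⟩, fun p => ?_, fun t p hp => r1 t p hp, fun t g x => r2 t g x⟩
    by_cases hp : (p : Re X) ∈ Bs X n
    · exact r1 0 p hp
    · have h1 := hγ p hp
      have h2 := r2 0 (γ p hp) (ξ p hp)
      rw [Vale.Agent.P246.T.CC.expd_zero] at h2
      apply Subtype.ext
      have h3 : (⟨cm H (γ p hp) (ξ p hp), hmem _ _⟩ : Bs X (n + 1)) = p := Subtype.ext h1
      rw [h3] at h2
      exact h2.trans h1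

end Vale.Agent.P178.H924
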