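import Vale.Agent.P178.H924.Fund
import Vale.Agent.P178.H924.Src

/-! # Simplicial homology is the singular homology of the realization -/

namespace Vale.Agent.P178.H924

open CategoryTheory Simplicial Opposite Topology Set
open Vale.Agent.P246.T

variable (X : SSet.{0})

/-- the canonical map from the simplicial chains to the singular chains of the realization -/
noncomputable def can (n : ℕ) : SCh X n →ₗ[ℤ] Ch n (Re X) := Finsupp.lmapDomain ℤ ℤ (chr X)

theorem can_single (n : ℕ) (x : X _⦋n⦌) (a : ℤ) :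
    can X n (Finsupp.single x a) = Finsupp.single (chr X x) a := Finsupp.mapDomain_single

theorem bd_can (n : ℕ) (c : SCh X (n + 1)) : bd n (can X (n + 1) c) = can X n (sbd X n c) := by
  have : (bd n).comp (can X (n + 1)) = (can X n).comp (sbd X n) := by
    refine Finsupp.lhom_ext fun x a => ?_
    rw [LinearMap.comp_apply, LinearMap.comp_apply, can_single, bd_single, sbd_single, map_sum]
    refine Finset.sum_congr rfl fun i _ => ?_
    rw [can_single]
    congr 1
    exact (chr_map X (SimplexCategory.δ i) x).symm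
  exact LinearMap.congr_fun this c

variable {X}

theorem chr_skel {n k : ℕ} {x : X _⦋k⦌} (hx : x ∈ (X.skeleton n).obj (op ⦋k⦌)) (t : Dl (k + 1)) :
    chr X x t ∈ Bs X n := by
  obtain ⟨m, f, hf, ⟨y, hy⟩, rfl⟩ := X.exists_nonDegenerate x
  have hm : m < n := by
    rw [← X.mem_skeleton_obj_iff_of_nonDegenerate ⟨y, hy⟩ n]
    obtain ⟨⟨s⟩⟩ := isSplitEpi_of_epi f
    have h1 : X.map s.section_.op (X.map f.op y) ∈ (X.skeleton n).obj (op ⦋m⦌) :=
      (X.skeleton n).map s.section_.op hx
    have h2 : X.map s.section_.op (X.map f.op y) = y := by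
      have : X.map f.op ≫ X.map s.section_.op = 𝟙 _ := by
        rw [← Functor.map_comp, ← op_comp, s.id, op_id, CategoryTheory.Functor.map_id]
      exact ConcreteCategory.congr_hom this y
    rw [h2] at h1
    exact h1
  rw [chr_map]
  exact chr_mem hm _ _

theorem can_mem {n k : ℕ} {c : SCh X k} (hc : c ∈ SC X (X.skeleton n) k) :
    can X k c ∈ Con (Bs X n) k := by
  have h : SC X (X.skeleton n) k ≤ (Con (Bs X n) k).comap (can X k) := by
    rw [SC, Finsupp.supported_eq_span_single, Submodule.span_le]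
    rintro _ ⟨x, hx, rfl⟩
    rw [SetLike.mem_coe, Submodule.mem_comap, can_single]
    exact SD.single_mem (fun t => chr_skel hx t) 1
  exact h hc

theorem mem_SC_of_lt {n k : ℕ} (h : k < n) (c : SCh X k) : c ∈ SC X (X.skeleton n) k := by
  rw [SC, Finsupp.mem_supported]
  intro x _
  exact X.mem_skeleton x h

theorem SC_mono {m n k : ℕ} (h : m ≤ n) {c : SCh X k} (hc : c ∈ SC X (X.skeleton m) k) :
    c ∈ SC X (X.skeleton n) k := by
  refine Finsupp.supported_mono ?_ hc
  intro x hx
  exact X.skeleton.monotone h _ hx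

/-- relative comparison, surjectivity -/
theorem rel_surj (n k : ℕ) {c : Ch k (Re X)} (hc : c ∈ Con (Bs X (n + 1)) k)
    (hr : RCyc (Bs X n) k c) : ∃ x ∈ SC X (X.skeleton (n + 1)) k, SRC (X.skeleton n) k x ∧
      Null (Bs X (n + 1)) (Bs X n) k (c - can X k x) := by
  obtain ⟨H⟩ := exists_homPair n
  obtain ⟨h1, h2, -⟩ := CL.main (Re X) n (X.nonDegenerate n) (Bs X (n + 1)) (Bs X n) (cm H) H.fc
    (isFund_fc n H) (cellData H)
  by_cases hk : k = n
  · subst hk
    obtain ⟨m, hm⟩ := h2 c hc hr
    refine ⟨m.mapDomain Subtype.val, mem_SC_of_lt (Nat.lt_succ_self k) _, ?_, ?_⟩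
    · cases k with
      | zero => trivial
      | succ k => exact mem_SC_of_lt (Nat.lt_succ_self k) _
    · have : can X k (m.mapDomain Subtype.val) = m.sum fun g a => a • push (cm H g) k H.fc := by
        rw [Finsupp.mapDomain, Finsupp.sum, map_sum, Finsupp.sum]
        refine Finset.sum_congr rfl fun g _ => ?_
        rw [can_single, HomPair.fc, push_single, Finsupp.smul_single, smul_eq_mul, mul_one]
        congr 1
        ext t
        change _ = chr X g.1 (H.h.symm (H.h t))
        rw [H.h.symm_apply_apply]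
      rw [this]
      exact hm
  · refine ⟨0, zero_mem _, ?_, ?_⟩
    · cases k with
      | zero => trivial
      | succ k =>
        change sbd X k 0 ∈ _
        rw [map_zero]; exact zero_mem _
    · rw [map_zero, sub_zero]
      exact h1 k hk c hc hr

/-- relative comparison, injectivity -/
theorem rel_inj (n k : ℕ) {x : SCh X k} (hx : x ∈ SC X (X.skeleton (n + 1)) k)
    (hs : SRC (X.skeleton n) k x) (hn : Null (Bs X (n + 1)) (Bs X n) k (can X k x)) :
    ∃ y ∈ SC X (X.skeleton (n + 1)) (k + 1), x - sbd X k y ∈ SC X (X.skeleton n) k := by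
  rcases lt_trichotomy k n with hk | rfl | hk
  · exact ⟨0, zero_mem _, mem_SC_of_lt hk _⟩
  · obtain ⟨H⟩ := exists_homPair k
    obtain ⟨-, -, h3⟩ := CL.main (Re X) k (X.nonDegenerate k) (Bs X (k + 1)) (Bs X k) (cm H) H.fc
      (isFund_fc k H) (cellData H)
    refine ⟨0, zero_mem _, ?_⟩
    rw [map_zero, sub_zero]
    let m : X.nonDegenerate k →₀ ℤ := x.comapDomain Subtype.val Subtype.val_injective.injOn
    have hm : x - m.mapDomain Subtype.val ∈ SC X (X.skeleton k) k := by
      rw [SC, Finsupp.mem_supported]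
      intro y hy
      by_cases hd : y ∈ X.nonDegenerate k
      · exfalso
        rw [Finset.mem_coe, Finsupp.mem_support_iff, Finsupp.sub_apply] at hy
        apply hy
        have : m.mapDomain Subtype.val y = m ⟨y, hd⟩ :=
          Finsupp.mapDomain_apply Subtype.val_injective m ⟨y, hd⟩
        rw [this]
        exact sub_self _
      · obtain ⟨l, hl, f, z, rfl⟩ := (X.mem_degenerate_iff_notMem_nonDegenerate y).2 hd
        exact (X.skeleton k).map f.op (X.mem_skeleton z hl)
    have hcan : can X k (m.mapDomain Subtype.val) = m.sum fun g a => a • push (cm H g) k H.fc := by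
      rw [Finsupp.mapDomain, Finsupp.sum, map_sum, Finsupp.sum]
      refine Finset.sum_congr rfl fun g _ => ?_
      rw [can_single, HomPair.fc, push_single, Finsupp.smul_single, smul_eq_mul, mul_one]
      congr 1
      ext t
      change _ = chr X g.1 (H.h.symm (H.h t))
      rw [H.h.symm_apply_apply]
    have h4 : Null (Bs X (k + 1)) (Bs X k) k (m.sum fun g a => a • push (cm H g) k H.fc) := by
      rw [← hcan]
      have h5 : can X k (m.mapDomain Subtype.val) = can X k x - can X k (x - m.mapDomain Subtype.val) := by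
        rw [← map_sub]; congr 1; abel
      rw [h5]
      exact PR.null_sub hn (PR.null_of_con (can_mem hm))
    have h0 : m = 0 := h3 m h4
    rw [h0, Finsupp.mapDomain_zero, sub_zero] at hm
    exact hm
  · obtain ⟨k, rfl⟩ : ∃ k', k = k' + 1 := ⟨k - 1, by omega⟩
    exact rel_acyclic X (by omega) hx hs

theorem null_empty_iff {B : Set (Re X)} {k : ℕ} {c : Ch k (Re X)} :
    Null B ∅ k c ↔ ∃ b ∈ Con B (k + 1), bd k b = c := by
  constructor
  · rintro ⟨b, hb, h⟩
    exact ⟨b, hb, (sub_eq_zero.1 (PR.Con_empty h)).symm⟩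
  · rintro ⟨b, hb, h⟩
    exact ⟨b, hb, by rw [h, sub_self]; exact zero_mem _⟩

theorem cyc_can {k : ℕ} {x : SCh X k} (h : SCyc k x) : Cyc k (can X k x) := by
  cases k with
  | zero => trivial
  | succ k =>
    change bd k (can X (k + 1) x) = 0
    rw [bd_can, show sbd X k x = 0 from h, map_zero]

theorem cyc_bd (k : ℕ) (b : Ch (k + 1) (Re X)) : Cyc k (bd k b) := by
  cases k with
  | zero => trivial
  | succ k => exact SD.bd_bd k b

theorem cyc_sub {k : ℕ} {c c' : Ch k (Re X)} (h : Cyc k c) (h' : Cyc k c') : Cyc k (c - c') := by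
  cases k with
  | zero => trivial
  | succ k =>
    change bd k (c - c') = 0
    rw [map_sub, show bd k c = 0 from h, show bd k c' = 0 from h', sub_zero]

theorem SC_zero {k : ℕ} {x : SCh X k} (h : x ∈ SC X (X.skeleton 0) k) : x = 0 := by
  rw [SC, Finsupp.mem_supported] at h
  rw [← Finsupp.support_eq_empty, Finset.eq_empty_iff_forall_notMem]
  intro y hy
  have := h hy
  rw [SSet.skeleton_zero] at this
  exact this

/-- the comparison for the skeleta -/
theorem comp_skel (n : ℕ) :
    (∀ k : ℕ, ∀ c ∈ Con (Bs X n) k, Cyc k c → ∃ x ∈ SC X (X.skeleton n) k, SCyc k x ∧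
      ∃ b ∈ Con (Bs X n) (k + 1), bd k b = c - can X k x) ∧
    (∀ k : ℕ, ∀ x ∈ SC X (X.skeleton n) k, SCyc k x → (∃ b ∈ Con (Bs X n) (k + 1),
      bd k b = can X k x) → ∃ y ∈ SC X (X.skeleton n) (k + 1), sbd X k y = x) := by
  induction n with
  | zero =>
    refine ⟨fun k c hc _ => ⟨0, zero_mem _, ?_, 0, zero_mem _, ?_⟩, fun k x hx _ _ =>
      ⟨0, zero_mem _, ?_⟩⟩
    · cases k with
      | zero => trivial
      | succ k => exact map_zero _
    · rw [Bs_zero] at hc
      rw [PR.Con_empty hc, map_zero, map_zero, sub_zero]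
    · rw [SC_zero hx, map_zero]
  | succ n ih =>
    obtain ⟨ihA, ihB⟩ := ih
    constructor
    · intro k c hc hz
      obtain ⟨x₁, hx₁, hs₁, b, hb, hn⟩ := rel_surj n k hc (PR.cyc_rcyc hz)
      obtain ⟨y, hy, hyc⟩ : ∃ y ∈ SC X (X.skeleton n) k, SCyc k (x₁ - y) := by
        cases k with
        | zero => exact ⟨0, zero_mem _, trivial⟩
        | succ k =>
          obtain ⟨y, hy, hy'⟩ := ihB k (sbd X k x₁) hs₁ (scyc_sbd k x₁)
            ⟨-(c - can X (k + 1) x₁ - bd (k + 1) b), neg_mem hn, by
              have hz' : bd k c = 0 := hz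
              rw [map_neg, map_sub, map_sub, SD.bd_bd, bd_can, hz']
              abel⟩
          refine ⟨y, hy, ?_⟩
          change sbd X k (x₁ - y) = 0
          rw [map_sub, hy', sub_self]
      have hy2 : c - can X k (x₁ - y) - bd k b = (c - can X k x₁ - bd k b) + can X k y := by
        rw [map_sub]; abel
      obtain ⟨x₂, hx₂, hs₂, b', hb', hn'⟩ := ihA k (c - can X k (x₁ - y) - bd k b)
        (by rw [hy2]; exact add_mem hn (can_mem hy))
        (cyc_sub (cyc_sub hz (cyc_can hyc)) (cyc_bd k b))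
      refine ⟨x₁ - y + x₂, add_mem (sub_mem hx₁ (SC_mono (Nat.le_succ n) hy))
        (SC_mono (Nat.le_succ n) hx₂), ?_, b + b', add_mem hb
          (PR.Con_mono (Bs_mono (Nat.le_succ n)) hb'), ?_⟩
      · cases k with
        | zero => trivial
        | succ k =>
          change sbd X k (x₁ - y + x₂) = 0
          rw [map_add, show sbd X k (x₁ - y) = 0 from hyc, show sbd X k x₂ = 0 from hs₂, add_zero]
      · rw [map_add, hn', map_add]
        abel
    · intro k x hx hz hb
      obtain ⟨b, hb, hbx⟩ := hb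
      obtain ⟨y, hy, hxy⟩ := rel_inj n k hx (hz.src _) ⟨b, hb, by
        rw [hbx, sub_self]; exact zero_mem _⟩
      have hcy : can X (k + 1) y ∈ Con (Bs X (n + 1)) (k + 1) := can_mem hy
      have hb1 : bd k (b - can X (k + 1) y) = can X k (x - sbd X k y) := by
        rw [map_sub, hbx, bd_can, map_sub]
      obtain ⟨z, hz1, hz2, b2, hb2, hn⟩ := rel_surj n (k + 1) (sub_mem hb hcy) (by
        change bd k (b - can X (k + 1) y) ∈ Con (Bs X n) k
        rw [hb1]
        exact can_mem hxy)
      have hz2' : sbd X k z ∈ SC X (X.skeleton n) k := hz2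
      obtain ⟨w, hw, hw'⟩ := ihB k (x - sbd X k y - sbd X k z) (sub_mem hxy hz2')
        ((hz.sub (scyc_sbd k y)).sub (scyc_sbd k z))
        ⟨_, hn, by
          rw [map_sub, map_sub, SD.bd_bd, hb1, bd_can, ← map_sub]
          abel_nf⟩
      refine ⟨y + z + w, add_mem (add_mem hy hz1) (SC_mono (Nat.le_succ n) hw), ?_⟩
      rw [map_add, map_add, hw']
      abel

/-! ### compactness -/

theorem isClosed_point (p : Re X) : IsClosed ({p} : Set (Re X)) := by
  obtain ⟨n₀, x₀, t₀, rfl⟩ := exists_chr p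
  obtain ⟨m, σ, u, hN⟩ := exists_nf x₀ t₀
  rw [chr_nf hN]
  rw [isClosed_iff]
  intro n x
  have key : chr X x ⁻¹' {chr X σ u} = ⋃ (j : Fin (n + 1)) (δ : ⦋(j : ℕ)⦌ ⟶ ⦋n⦌)
      (s : ⦋(j : ℕ)⦌ ⟶ ⦋m⦌) (_ : X.map δ.op x = X.map s.op σ), am δ '' (am s ⁻¹' {u}) := by
    ext t
    simp only [Set.mem_iUnion]
    constructor
    · intro ht
      have h1 : chr X σ u = chr X x t := ht.symm
      obtain ⟨-, -, j, δ, hδ, t', s, hs, -, e1, e2, e3⟩ := nf_of_chr_eq h1 (nf_self hN.1 hN.2.1)
      exact ⟨⟨j, Nat.lt_succ_of_le (SimplexCategory.len_le_of_mono δ)⟩, δ, s, e2, t', e3, e1⟩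
    · rintro ⟨j, δ, s, e2, t', e3, rfl⟩
      have e3' : am s t' = u := e3
      have h1 := congrArg (fun f : C(Dl (j + 1), Re X) => f t') (chr_map X δ x)
      have h2 := congrArg (fun f : C(Dl (j + 1), Re X) => f t') (chr_map X s σ)
      rw [e2] at h1
      have h3 : chr X x (am δ t') = chr X σ (am s t') := h1.symm.trans h2
      rw [e3'] at h3
      exact h3
  rw [key]
  refine isClosed_iUnion_of_finite fun j => ?_
  refine isClosed_iUnion_of_finite fun δ => ?_
  refine isClosed_iUnion_of_finite fun s => ?_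
  refine isClosed_iUnion_of_finite fun _ => ?_
  have h1 : IsClosed (am s ⁻¹' {u}) := isClosed_singleton.preimage (am s).continuous
  exact (h1.isCompact.image (am δ).continuous).isClosed

/-- compact sets lie in skeleta -/
theorem exists_Bs {K : Set (Re X)} (hK : IsCompact K) : ∃ n, K ⊆ Bs X n := by
  by_contra h
  push Not at h
  have h' : ∀ n, ∃ p ∈ K, p ∉ Bs X n := fun n => Set.not_subset.1 (h n)
  choose p hpK hp using h'
  have hcl : ∀ n, IsClosed (p '' {m | n ≤ m}) := by
    intro n
    rw [isClosed_iff]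
    intro k x
    have : chr X x ⁻¹' (p '' {m | n ≤ m}) = ⋃ (m : Fin (k + 1)) (_ : n ≤ m), chr X x ⁻¹' {p m} := by
      ext t
      simp only [Set.mem_iUnion]
      constructor
      · rintro ⟨m, hm, he⟩
        have h1 : m < k + 1 := by
          by_contra hmk
          apply hp m
          rw [he]
          exact chr_mem (by omega) x t
        exact ⟨⟨m, h1⟩, hm, he.symm⟩
      · rintro ⟨m, hm, he⟩
        exact ⟨m, hm, he.symm⟩
    rw [this]
    refine isClosed_iUnion_of_finite fun m => ?_
    refine isClosed_iUnion_of_finite fun _ => ?_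
    exact (isClosed_point _).preimage (chr X x).continuous
  obtain ⟨q, hq⟩ := IsCompact.nonempty_iInter_of_sequence_nonempty_isCompact_isClosed
    (fun n => p '' {m | n ≤ m}) (fun n => Set.image_mono fun m hm => by
      simp only [Set.mem_ofPred_eq] at hm ⊢; omega)
    (fun n => ⟨p n, n, le_refl n, rfl⟩)
    (hK.of_isClosed_subset (hcl 0) (by rintro _ ⟨m, -, rfl⟩; exact hpK m)) hcl
  obtain ⟨k, x, t, rfl⟩ := exists_chr q
  obtain ⟨m, hm, he⟩ := Set.mem_iInter.1 hq (k + 1)
  apply hp m
  rw [he]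
  exact chr_mem (by simp only [Set.mem_ofPred_eq] at hm; omega) x t

theorem exists_con {k : ℕ} (c : Ch k (Re X)) : ∃ n, ∀ m, n ≤ m → c ∈ Con (Bs X m) k := by
  induction c using Finsupp.induction_linear with
  | zero => exact ⟨0, fun m _ => zero_mem _⟩
  | add a b ha hb =>
    obtain ⟨n, hn⟩ := ha
    obtain ⟨n', hn'⟩ := hb
    exact ⟨max n n', fun m hm => add_mem (hn m (le_trans (le_max_left _ _) hm))
      (hn' m (le_trans (le_max_right _ _) hm))⟩
  | single σ a =>
    obtain ⟨n, hn⟩ := exists_Bs (isCompact_range σ.continuous)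
    exact ⟨n, fun m hm => SD.single_mem (fun t => Bs_mono hm (hn ⟨t, rfl⟩)) a⟩

theorem exists_SC {k : ℕ} (x : SCh X k) : x ∈ SC X (X.skeleton (k + 1)) k :=
  mem_SC_of_lt (Nat.lt_succ_self k) x

/-- **Comparison, surjectivity**: every singular cycle of the realization is homologous to a
simplicial cycle. -/
theorem comp_surj (X : SSet.{0}) (k : ℕ) (c : Ch k (Re X)) (hc : Cyc k c) :
    ∃ x : SCh X k, SCyc k x ∧ ∃ b : Ch (k + 1) (Re X), bd k b = c - can X k x := by
  obtain ⟨n, hn⟩ := exists_con c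
  obtain ⟨x, -, hx, b, -, hb⟩ := (comp_skel n).1 k c (hn n le_rfl) hc
  exact ⟨x, hx, b, hb⟩

/-- **Comparison, injectivity**: a simplicial cycle which bounds in the realization bounds
simplicially. -/
theorem comp_inj (X : SSet.{0}) (k : ℕ) (x : SCh X k) (hx : SCyc k x) (b : Ch (k + 1) (Re X))
    (hb : bd k b = can X k x) : ∃ y : SCh X (k + 1), sbd X k y = x := by
  obtain ⟨n, hn⟩ := exists_con b
  obtain ⟨y, -, hy⟩ := (comp_skel (max n (k + 1))).2 k x
    (SC_mono (le_max_right _ _) (exists_SC x)) hx ⟨b, hn _ (le_max_left _ _), hb⟩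
  exact ⟨y, hy⟩

end Vale.Agent.P178.H924
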