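import Mathlib.AlgebraicTopology.DoldKan.HomotopyEquivalence
import Mathlib.AlgebraicTopology.DoldKan.Degeneracies
import Mathlib.AlgebraicTopology.SimplicialSet.Skeleton
import Mathlib.Algebra.Category.ModuleCat.Adjunctions

/-! # Simplicial chains; degenerate chains -/

namespace Vale.Agent.P178.H924

open scoped DoldKan
open CategoryTheory Simplicial Opposite AlgebraicTopology AlgebraicTopology.DoldKan Category Limits
  Preadditive

section Nat

variable {C : Type*} [Category* C] [Preadditive C]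

set_option backward.isDefEq.respectTransparency false in
/-- the homotopies are natural -/
theorem hom_nat {X Y : SimplicialObject C} (f : X ⟶ Y) (n : ℕ) : ∀ q : ℕ,
    ((homotopyPToId X q).hom n (n + 1) : X _⦋n⦌ ⟶ X _⦋n + 1⦌) ≫ f.app (op ⦋n + 1⦌) =
      f.app (op ⦋n⦌) ≫ ((homotopyPToId Y q).hom n (n + 1) : Y _⦋n⦌ ⟶ Y _⦋n + 1⦌) := by
  intro q
  induction q with
  | zero => simp [homotopyPToId]
  | succ q ih =>
    simp only [homotopyHσToZero, AlternatingFaceMapComplex.obj_X, Homotopy.trans_hom,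
      Homotopy.ofEq_hom, Pi.zero_apply, Homotopy.add_hom, Homotopy.compLeft_hom, add_zero,
      Homotopy.nullHomotopy'_hom, zero_add, homotopyPToId, comp_add, add_comp]
    rw [ih]
    congr 1
    have h : (ComplexShape.down ℕ).Rel (n + 1) n := rfl
    simp only [h, dif_pos, assoc]
    erw [← hσ'_naturality, ← P_f_naturality_assoc]

end Nat

/-- simplicial chains -/
abbrev SCh (X : SSet.{0}) (n : ℕ) : Type := X _⦋n⦌ →₀ ℤ

/-- the simplicial boundary map -/
noncomputable def sbd (X : SSet.{0}) (n : ℕ) : SCh X (n + 1) →ₗ[ℤ] SCh X n :=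
  Finsupp.linearCombination ℤ fun x : X _⦋n + 1⦌ =>
    ∑ i : Fin (n + 2), Finsupp.single (X.δ i x) ((-1 : ℤ) ^ (i : ℕ))

theorem sbd_single (X : SSet.{0}) (n : ℕ) (x : X _⦋n + 1⦌) (a : ℤ) :
    sbd X n (Finsupp.single x a) =
      ∑ i : Fin (n + 2), Finsupp.single (X.δ i x) (a * (-1 : ℤ) ^ (i : ℕ)) := by
  rw [sbd, Finsupp.linearCombination_single, Finset.smul_sum]
  simp only [Finsupp.smul_single, smul_eq_mul]

/-- the simplicial module of chains -/
noncomputable def ZS (X : SSet.{0}) : SimplicialObject (ModuleCat.{0} ℤ) where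
  obj n := ModuleCat.of ℤ (X.obj n →₀ ℤ)
  map f := ModuleCat.ofHom (Finsupp.lmapDomain ℤ ℤ (X.map f))
  map_id n := by
    apply ModuleCat.hom_ext
    refine Finsupp.lhom_ext fun x a => ?_
    simp
  map_comp f g := by
    apply ModuleCat.hom_ext
    refine Finsupp.lhom_ext fun x a => ?_
    simp

/-- the map of simplicial modules -/
noncomputable def ZSmap {X Y : SSet.{0}} (f : X ⟶ Y) : ZS X ⟶ ZS Y where
  app n := ModuleCat.ofHom (Finsupp.lmapDomain ℤ ℤ (f.app n))
  naturality m n g := by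
    apply ModuleCat.hom_ext
    refine Finsupp.lhom_ext fun x a => ?_
    have := NatTrans.naturality_apply f g x
    change Finsupp.mapDomain _ (Finsupp.mapDomain _ _) = Finsupp.mapDomain _ (Finsupp.mapDomain _ _)
    simp only [Finsupp.mapDomain_single]
    rw [this]

/-- the homotopy -/
noncomputable def hh (X : SSet.{0}) (n : ℕ) : SCh X n →ₗ[ℤ] SCh X (n + 1) :=
  ((homotopyPInftyToId (ZS X)).hom n (n + 1)).hom

/-- the projection -/
noncomputable def pp (X : SSet.{0}) (n : ℕ) : SCh X n →ₗ[ℤ] SCh X n :=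
  ((PInfty : K[ZS X] ⟶ _).f n).hom

/-- the differential of the alternating face map complex -/
noncomputable def dd (X : SSet.{0}) (n : ℕ) : SCh X (n + 1) →ₗ[ℤ] SCh X n :=
  ((AlternatingFaceMapComplex.obj (ZS X)).d (n + 1) n).hom

/-- the faces -/
noncomputable def sde (X : SSet.{0}) (n : ℕ) (i : Fin (n + 2)) : SCh X (n + 1) →ₗ[ℤ] SCh X n :=
  ((ZS X).δ i).hom

theorem sde_single (X : SSet.{0}) (n : ℕ) (i : Fin (n + 2)) (x : X _⦋n + 1⦌) (a : ℤ) :
    sde X n i (Finsupp.single x a) = Finsupp.single (X.δ i x) a := Finsupp.mapDomain_single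

/-- the degeneracies -/
noncomputable def ssi (X : SSet.{0}) (n : ℕ) (i : Fin (n + 1)) : SCh X n →ₗ[ℤ] SCh X (n + 1) :=
  ((ZS X).σ i).hom

theorem ssi_single (X : SSet.{0}) (n : ℕ) (i : Fin (n + 1)) (x : X _⦋n⦌) (a : ℤ) :
    ssi X n i (Finsupp.single x a) = Finsupp.single (X.σ i x) a := Finsupp.mapDomain_single

theorem dd_eq (X : SSet.{0}) (n : ℕ) : dd X n = sbd X n := by
  have h : (AlternatingFaceMapComplex.obj (ZS X)).d (n + 1) n =
      ∑ i : Fin (n + 2), (-1 : ℤ) ^ (i : ℕ) • (ZS X).δ i := AlternatingFaceMapComplex.obj_d_eq _ _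
  have h1 := congrArg ModuleCat.Hom.hom h
  rw [ModuleCat.hom_sum] at h1
  have h2 : dd X n = ∑ i : Fin (n + 2), (-1 : ℤ) ^ (i : ℕ) • sde X n i := h1
  refine Finsupp.lhom_ext fun x a => ?_
  rw [sbd_single, h2, LinearMap.sum_apply]
  refine Finset.sum_congr rfl fun i _ => ?_
  rw [LinearMap.smul_apply, sde_single, Finsupp.smul_single, smul_eq_mul, mul_comm]

theorem pp_eq (X : SSet.{0}) (n : ℕ) (c : SCh X (n + 1)) :
    pp X (n + 1) c = hh X n (sbd X n c) + sbd X (n + 1) (hh X (n + 1) c) + c := by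
  have h := (homotopyPInftyToId (ZS X)).comm (n + 1)
  rw [Homotopy.dNext_succ_chainComplex, Homotopy.prevD_chainComplex] at h
  have h2 : pp X (n + 1) = (hh X n).comp (dd X n) + (dd X (n + 1)).comp (hh X (n + 1)) +
    LinearMap.id := congrArg ModuleCat.Hom.hom h
  rw [← dd_eq, ← dd_eq, h2]
  rfl

theorem pp_ssi (X : SSet.{0}) (n : ℕ) (i : Fin (n + 1)) : (pp X (n + 1)).comp (ssi X n i) = 0 := by
  have h : (ZS X).σ i ≫ (PInfty : K[ZS X] ⟶ _).f (n + 1) = 0 := σ_comp_PInfty (ZS X) i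
  exact congrArg ModuleCat.Hom.hom h

theorem pp_degenerate (X : SSet.{0}) (n : ℕ) {x : X _⦋n⦌} (hx : x ∈ X.degenerate n) (a : ℤ) :
    pp X n (Finsupp.single x a) = 0 := by
  cases n with
  | zero => simp at hx
  | succ n =>
    rw [SSet.degenerate_eq_iUnion_range_σ] at hx
    simp only [Set.mem_iUnion, Set.mem_range] at hx
    obtain ⟨i, y, rfl⟩ := hx
    have h := LinearMap.congr_fun (pp_ssi X n i) (Finsupp.single y a)
    rw [LinearMap.comp_apply, ssi_single] at h
    exact h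

/-- chains in a subcomplex -/
def SC (X : SSet.{0}) (A : X.Subcomplex) (n : ℕ) : Submodule ℤ (SCh X n) :=
  Finsupp.supported ℤ ℤ {x : X _⦋n⦌ | x ∈ A.obj (op ⦋n⦌)}

/-- push forward of simplicial chains -/
noncomputable def spush {X Y : SSet.{0}} (f : X ⟶ Y) (n : ℕ) : SCh X n →ₗ[ℤ] SCh Y n :=
  Finsupp.lmapDomain ℤ ℤ (f.app (op ⦋n⦌))

theorem spush_single {X Y : SSet.{0}} (f : X ⟶ Y) (n : ℕ) (x : X _⦋n⦌) (a : ℤ) :
    spush f n (Finsupp.single x a) = Finsupp.single (f.app (op ⦋n⦌) x) a :=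
  Finsupp.mapDomain_single

theorem spush_hh {X Y : SSet.{0}} (f : X ⟶ Y) (n : ℕ) (c : SCh X n) :
    spush f (n + 1) (hh X n c) = hh Y n (spush f n c) := by
  have h := hom_nat (ZSmap f) n (n + 1 + 1)
  have h2 : (spush f (n + 1)).comp (hh X n) = (hh Y n).comp (spush f n) :=
    congrArg ModuleCat.Hom.hom h
  exact LinearMap.congr_fun h2 c

theorem spush_sbd {X Y : SSet.{0}} (f : X ⟶ Y) (n : ℕ) (c : SCh X (n + 1)) :
    spush f n (sbd X n c) = sbd Y n (spush f (n + 1) c) := by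
  have : (spush f n).comp (sbd X n) = (sbd Y n).comp (spush f (n + 1)) := by
    refine Finsupp.lhom_ext fun x a => ?_
    rw [LinearMap.comp_apply, LinearMap.comp_apply, spush_single, sbd_single, sbd_single, map_sum]
    refine Finset.sum_congr rfl fun i _ => ?_
    rw [spush_single]
    congr 1
    exact NatTrans.naturality_apply f (SimplexCategory.δ i).op x
  exact LinearMap.congr_fun this c

theorem exists_spush (X : SSet.{0}) (A : X.Subcomplex) (n : ℕ) {c : SCh X n} (hc : c ∈ SC X A n) :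
    ∃ c' : SCh A.toSSet n, spush A.ι n c' = c := by
  have h : SC X A n ≤ LinearMap.range (spush A.ι n) := by
    rw [SC, Finsupp.supported_eq_span_single, Submodule.span_le]
    rintro _ ⟨x, hx, rfl⟩
    exact ⟨Finsupp.single ⟨x, hx⟩ 1, spush_single _ _ _ _⟩
  exact h hc

theorem spush_mem (X : SSet.{0}) (A : X.Subcomplex) (n : ℕ) (c : SCh A.toSSet n) :
    spush A.ι n c ∈ SC X A n := by
  induction c using Finsupp.induction_linear with
  | zero => rw [map_zero]; exact zero_mem _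
  | add a b ha hb => rw [map_add]; exact add_mem ha hb
  | single x a =>
    rw [spush_single]
    exact Finsupp.single_mem_supported _ _ x.2

theorem hh_mem (X : SSet.{0}) (A : X.Subcomplex) (n : ℕ) {c : SCh X n} (hc : c ∈ SC X A n) :
    hh X n c ∈ SC X A (n + 1) := by
  obtain ⟨c', rfl⟩ := exists_spush X A n hc
  rw [← spush_hh]
  exact spush_mem _ _ _ _

theorem sbd_mem (X : SSet.{0}) (A : X.Subcomplex) (n : ℕ) {c : SCh X (n + 1)}
    (hc : c ∈ SC X A (n + 1)) : sbd X n c ∈ SC X A n := by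
  obtain ⟨c', rfl⟩ := exists_spush X A _ hc
  rw [← spush_sbd]
  exact spush_mem _ _ _ _

theorem degenerate_of_skeleton (X : SSet.{0}) {n k : ℕ} (hk : n ≤ k) {x : X _⦋k⦌}
    (hx : x ∈ (X.skeleton n).obj (op ⦋k⦌)) : x ∈ X.degenerate k := by
  by_contra h
  have := (X.mem_skeleton_obj_iff_of_nonDegenerate ⟨x, h⟩ n).1 hx
  omega

/-- degenerate chains in the relative complex of skeleta bound -/
theorem rel_acyclic (X : SSet.{0}) {n k : ℕ} (hk : n ≤ k) {c : SCh X (k + 1)}
    (hc : c ∈ SC X (X.skeleton (n + 1)) (k + 1)) (hb : sbd X k c ∈ SC X (X.skeleton n) k) :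
    ∃ y ∈ SC X (X.skeleton (n + 1)) (k + 2), c - sbd X (k + 1) y ∈ SC X (X.skeleton n) (k + 1) := by
  have h0 : SC X (X.skeleton (n + 1)) (k + 1) ≤ LinearMap.ker (pp X (k + 1)) := by
    rw [SC, Finsupp.supported_eq_span_single, Submodule.span_le]
    rintro _ ⟨x, hx, rfl⟩
    exact pp_degenerate X _ (degenerate_of_skeleton X (by omega) hx) 1
  have h1 : pp X (k + 1) c = 0 := h0 hc
  rw [pp_eq] at h1
  refine ⟨-hh X (k + 1) c, neg_mem (hh_mem _ _ _ hc), ?_⟩
  have h2 : c - sbd X (k + 1) (-hh X (k + 1) c) = -hh X k (sbd X k c) := by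
    rw [map_neg, sub_neg_eq_add, eq_neg_iff_add_eq_zero, ← h1]
    abel
  rw [h2]
  exact neg_mem (hh_mem _ _ _ hb)

end Vale.Agent.P178.H924
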