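import Vale.Agent.P178.H924.Cells
import Vale.Agent.P246.T.FM
import Vale.Agent.P246.T.CL
import Vale.Agent.P246.T.PR

/-! # The identity simplex is a fundamental chain -/

namespace Vale.Agent.P178.H924

open Topology Set Metric
open Vale.Agent.P246.T
open Vale.Agent.P246.T.FM (Acy RedCyc redCyc_bd mem_univ_con con_mono acy_of_contr acy_dk null_of
  sum_unit fund0)

/-- the prism operator -/
noncomputable def PO : PrismOp := Classical.choice Vale.Agent.P246.T.PR.main

section Gen

variable {M N : Type} [TopologicalSpace M] [TopologicalSpace N]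

theorem redCyc_push {f : C(M, N)} {k : ℕ} {c : Ch k M} (h : RedCyc k c) :
    RedCyc k (push f k c) := by
  cases k with
  | zero =>
    change FM.wt 0 (push f 0 c) = 0
    rw [FM.wt_push]; exact h
  | succ k =>
    change bd k (push f (k + 1) c) = 0
    rw [push_bd, show bd k c = 0 from h, map_zero]

theorem acy_sub {A : Set M} (h : Acy (univ : Set A)) : Acy A := by
  intro k c hc hz
  obtain ⟨c', rfl⟩ := PR.exists_push_inc hc
  have hz' : RedCyc k c' := by
    cases k with
    | zero =>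
      have h1 : FM.wt 0 (push (PR.inc A) 0 c') = 0 := hz
      rw [FM.wt_push] at h1
      exact h1
    | succ k =>
      have h1 : bd k (push (PR.inc A) (k + 1) c') = 0 := hz
      rw [push_bd] at h1
      exact PR.push_inc_injective k (by rw [h1, map_zero])
  obtain ⟨b, -, hb⟩ := h k c' (mem_univ_con _ _) hz'
  exact ⟨push (PR.inc A) (k + 1) b, PR.push_inc_mem b, by rw [push_bd, hb]⟩

theorem acy_homeo (h : M ≃ₜ N) {A : Set M} {B : Set N} (hA : Acy A) (h1 : ∀ x ∈ A, h x ∈ B)
    (h2 : ∀ y ∈ B, h.symm y ∈ A) : Acy B := by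
  intro k c hc hz
  obtain ⟨b, hb, he⟩ := hA k (push ⟨h.symm, h.symm.continuous⟩ k c) (push_mem (fun y hy => h2 y hy) hc)
    (redCyc_push hz)
  refine ⟨push ⟨h, h.continuous⟩ (k + 1) b, push_mem (fun x hx => h1 x hx) hb, ?_⟩
  rw [push_bd, he, ← push_comp]
  have : (⟨h, h.continuous⟩ : C(M, N)).comp ⟨h.symm, h.symm.continuous⟩ = ContinuousMap.id N := by
    ext x; exact h.apply_symm_apply x
  rw [this, push_id]

end Gen

/-! ### the horn -/

/-- the horn with the faces `i ≠ 0` -/
def horn (n : ℕ) : Set (Dl (n + 2)) := {t | ∃ i, i ≠ 0 ∧ t i = 0}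

theorem isClosed_horn (n : ℕ) : IsClosed (horn n) := by
  have : horn n = ⋃ (i : Fin (n + 2)), ⋃ (_ : i ≠ 0), {t : Dl (n + 2) | t i = 0} := by
    ext t; simp [horn]
  rw [this]
  refine isClosed_iUnion_of_finite fun i => isClosed_iUnion_of_finite fun _ => ?_
  exact isClosed_eq ((continuous_apply i).comp continuous_subtype_val) continuous_const

/-- the contraction to the vertex `0` -/
noncomputable def ctr (n : ℕ) (q : unitInterval × Dl (n + 2)) : Dl (n + 2) :=
  ⟨fun i => (1 - (q.1 : ℝ)) * q.2 i + q.1 * (if i = 0 then 1 else 0), by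
    have h1 := q.1.2.1
    have h2 := q.1.2.2
    refine ⟨fun i => ?_, ?_⟩
    · have := q.2.2.1 i
      have h3 : (0 : ℝ) ≤ if i = 0 then 1 else 0 := by split_ifs <;> norm_num
      have h4 : (0 : ℝ) ≤ q.2 i := this
      have h5 : (0 : ℝ) ≤ 1 - q.1 := by linarith
      positivity
    · rw [Finset.sum_add_distrib, ← Finset.mul_sum, ← Finset.mul_sum]
      have h3 : ∑ i, q.2 i = 1 := q.2.2.2
      rw [h3]
      simp⟩

theorem continuous_ctr (n : ℕ) : Continuous (ctr n) := by
  refine Continuous.subtype_mk (continuous_pi fun i => ?_) _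
  have h1 : Continuous fun q : unitInterval × Dl (n + 2) => (q.1 : ℝ) := by fun_prop
  have h2 : Continuous fun q : unitInterval × Dl (n + 2) => q.2 i :=
    ((continuous_apply i).comp continuous_subtype_val).comp continuous_snd
  exact ((continuous_const.sub h1).mul h2).add (h1.mul continuous_const)

theorem ctr_horn {n : ℕ} (s : unitInterval) {t : Dl (n + 2)} (ht : t ∈ horn n) :
    ctr n (s, t) ∈ horn n := by
  obtain ⟨i, hi, h⟩ := ht
  refine ⟨i, hi, ?_⟩
  change (1 - (s : ℝ)) * t i + s * (if i = 0 then 1 else 0) = 0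
  rw [h, if_neg hi]
  ring

theorem acy_horn (n : ℕ) : Acy (horn n) := by
  apply acy_sub
  have h0 : (ctr n (1, stdSimplex.vertex 0)) ∈ horn n := by
    refine ctr_horn 1 ⟨1, one_ne_zero, ?_⟩
    change (Pi.single 0 1 : Fin (n + 2) → ℝ) 1 = 0
    simp
  refine acy_of_contr PO (⟨ctr n (1, stdSimplex.vertex 0), h0⟩ : horn n)
    ⟨fun q => ⟨ctr n (q.1, q.2), ctr_horn q.1 q.2.2⟩, ?_⟩ ?_ ?_
  · exact Continuous.subtype_mk ((continuous_ctr n).comp (by fun_prop)) _
  · intro x
    apply Subtype.ext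
    apply Subtype.ext
    funext i
    change (1 - (0 : ℝ)) * x.1 i + (0 : ℝ) * (if i = 0 then 1 else 0) = x.1 i
    ring
  · intro x
    apply Subtype.ext
    apply Subtype.ext
    funext i
    change (1 - (1 : ℝ)) * x.1 i + (1 : ℝ) * (if i = 0 then 1 else 0) =
      (1 - (1 : ℝ)) * (stdSimplex.vertex (S := ℝ) (0 : Fin (n + 2))) i + (1 : ℝ) * (if i = 0 then 1 else 0)
    ring

/-! ### the criterion, for an arbitrary acyclic `J` -/

section Crit

variable {n : ℕ} {J : Set (Dk (n + 1))} {Φ : C(Dk n, Dk (n + 1))}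

theorem homSJ (hJ : IsClosed J) (hat : Attach n J (bdk (n + 1)) Φ) {ζ : Ch n (Dk n)}
    (hζ : IsFund n ζ) :
    (∀ k, k ≠ n → HZero (bdk (n + 1)) J k) ∧
    (∀ c ∈ Con (bdk (n + 1)) n, RCyc J n c →
      ∃ m : ℤ, Null (bdk (n + 1)) J n (c - m • push Φ n ζ)) ∧
    ∀ m : ℤ, Null (bdk (n + 1)) J n (m • push Φ n ζ) → m = 0 := by
  obtain ⟨h1, h2, h3⟩ := CL.main (Dk (n + 1)) n Unit (bdk (n + 1)) J (fun _ => Φ) ζ hζ
    (CC.cc1 (Dk (n + 1)) n J (bdk (n + 1)) Φ hJ hat)
  refine ⟨h1, fun c hc hc' => ?_, fun m hm => ?_⟩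
  · obtain ⟨m, hm⟩ := h2 c hc hc'
    rw [sum_unit] at hm
    exact ⟨m (), hm⟩
  · have := h3 (Finsupp.single () m) (by rw [sum_unit]; simpa using hm)
    simpa using this

theorem bound (hA : Acy J) (hJ : J ⊆ bdk (n + 1)) {k : ℕ} {z : Ch k (Dk (n + 1))}
    (hz : RedCyc k z) (h : Null (bdk (n + 1)) J k z) :
    ∃ b ∈ Con (bdk (n + 1)) (k + 1), bd k b = z := by
  obtain ⟨b1, hb1, h1⟩ := h
  obtain ⟨b2, hb2, h2⟩ := hA k _ h1 (hz.sub (redCyc_bd k b1))
  refine ⟨b1 + b2, add_mem hb1 (con_mono hJ hb2), ?_⟩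
  rw [map_add, h2]
  abel

theorem crit (hcl : IsClosed J) (hA : Acy J) (hJ : J ⊆ bdk (n + 1)) (hne : J.Nonempty)
    (hat : Attach n J (bdk (n + 1)) Φ) {ζ : Ch n (Dk n)} (hζ : IsFund n ζ)
    {ξ : Ch (n + 1) (Dk (n + 1))} (h1 : bd n ξ ∈ Con (bdk (n + 1)) n)
    (h2 : bd n ξ - push Φ n ζ ∈ Con J n) : IsFund (n + 1) ξ := by
  obtain ⟨e1, e2, e3⟩ := homSJ hcl hat hζ
  refine ⟨h1, ?_, ?_, ?_⟩
  · intro k hk c _ hc
    cases k with
    | zero =>
      obtain ⟨x₀, hx₀⟩ := hne
      obtain ⟨b, hb, h⟩ := acy_dk PO (n + 1) 0 (c - FM.wt 0 c • ksx 0 x₀)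
        (mem_univ_con _ _) (by
          change FM.wt 0 _ = 0
          rw [map_sub, map_smul, FM.wt_ksx, smul_eq_mul, mul_one, sub_self])
      refine ⟨b, hb, ?_⟩
      rw [h, sub_sub_cancel]
      apply Submodule.smul_mem
      exact SD.single_mem (fun _ => hJ hx₀) 1
    | succ k =>
      apply null_of PO
      have hc' : bd k c ∈ Con (bdk (n + 1)) k := hc
      exact bound hA hJ (redCyc_bd k c) (e1 k (by omega) _ hc' ((redCyc_bd k c).rcyc _))
  · intro c hc
    have hc' : bd n c ∈ Con (bdk (n + 1)) n := hc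
    obtain ⟨m, hm⟩ := e2 _ hc' ((redCyc_bd n c).rcyc _)
    refine ⟨m, null_of PO (bound hA hJ (redCyc_bd n _) ?_)⟩
    obtain ⟨b, hb, h⟩ := hm
    refine ⟨b, hb, ?_⟩
    have := sub_mem h (Submodule.smul_mem _ m h2)
    convert this using 1
    rw [map_sub, map_smul, smul_sub]
    abel
  · rintro m ⟨b, hb, h⟩
    apply e3
    refine ⟨m • ξ - bd (n + 1) b, h, ?_⟩
    have := Submodule.smul_mem _ (-m) h2
    convert this using 1
    rw [map_sub, map_smul, SD.bd_bd, sub_zero, smul_sub, neg_smul, neg_smul]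
    abel

end Crit

/-- the fundamental chain of a homeomorphism of pairs -/
noncomputable def HomPair.fc {n : ℕ} (H : HomPair n) : Ch n (Dk n) :=
  Finsupp.single ⟨H.h, H.h.continuous⟩ 1

theorem face_zero_ne {n : ℕ} (t : Dl (n + 1)) (i : Fin (n + 2)) (hi : i ≠ 0) :
    ∃ j : Fin (n + 1), face (n + 1) 0 t i = t j ∧ i = j.succ := by
  obtain ⟨j, rfl⟩ := Fin.exists_succ_eq.2 hi
  refine ⟨j, ?_, rfl⟩
  have := CV.face_succAbove (n + 1) 0 t j
  rwa [Fin.zero_succAbove] at this

theorem isFund_fc : ∀ (n : ℕ) (H : HomPair n), IsFund n H.fc := by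
  intro n
  induction n with
  | zero =>
    intro H
    have : H.fc = ksx 0 (clp 0 0) := by
      rw [HomPair.fc, ksx]
      congr 1
      ext x i
      exact i.elim0
    rw [this]
    exact fund0 PO
  | succ n ih =>
    intro H'
    obtain ⟨H⟩ := exists_homPair n
    let J : Set (Dk (n + 1)) := H'.h '' horn n
    let Φ : C(Dk n, Dk (n + 1)) :=
      (⟨H'.h, H'.h.continuous⟩ : C(Dl (n + 2), Dk (n + 1))).comp
        ((face (n + 1) 0).comp ⟨H.h.symm, H.h.symm.continuous⟩)
    have hΦ : ∀ x, Φ x = H'.h (face (n + 1) 0 (H.h.symm x)) := fun x => rfl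
    have hcl : IsClosed J := H'.h.isClosedMap _ (isClosed_horn n)
    have hA : Acy J := acy_homeo H'.h (acy_horn n) (fun x hx => ⟨x, hx, rfl⟩) (by
      rintro _ ⟨x, hx, rfl⟩
      rw [H'.h.symm_apply_apply]; exact hx)
    have hJ : J ⊆ bdk (n + 1) := by
      rintro _ ⟨x, ⟨i, -, hi⟩, rfl⟩
      exact (H'.bd x).2 fun h => h i hi
    have hne : J.Nonempty := by
      refine ⟨_, ⟨stdSimplex.vertex 0, ⟨1, one_ne_zero, ?_⟩, rfl⟩⟩
      change (Pi.single 0 1 : Fin (n + 2) → ℝ) 1 = 0
      simp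
    have hat : Attach n J (bdk (n + 1)) Φ := by
      refine ⟨?_, ?_, ?_, ?_⟩
      · intro x hx
        have h1 : ¬ Inr (H.h.symm x) := by
          rw [← H.bd, H.h.apply_symm_apply]; exact hx
        rw [Inr] at h1
        push Not at h1
        obtain ⟨i, hi⟩ := h1
        refine ⟨_, ⟨i.succ, Fin.succ_ne_zero i, ?_⟩, rfl⟩
        have := CV.face_succAbove (n + 1) 0 (H.h.symm x) i
        rw [Fin.zero_succAbove] at this
        exact this.trans hi
      · rintro x hx ⟨t, ⟨i, hi, ht⟩, he⟩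
        have h1 := H.inr hx
        have h2 : t = face (n + 1) 0 (H.h.symm x) := H'.h.injective he
        obtain ⟨j, hj, -⟩ := face_zero_ne (H.h.symm x) i hi
        rw [← h2, ht] at hj
        exact h1 j hj.symm
      · intro x y hx hy he
        have h1 := H'.h.injective he
        have h2 : H.h.symm x = H.h.symm y := by
          refine Subtype.ext (funext fun j => ?_)
          have e1 := CV.face_succAbove (n + 1) 0 (H.h.symm x) j
          have e2 := CV.face_succAbove (n + 1) 0 (H.h.symm y) j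
          have h1' : face (n + 1) 0 (H.h.symm x) = face (n + 1) 0 (H.h.symm y) := h1
          rw [h1', e2] at e1
          exact e1.symm
        exact H.h.symm.injective h2
      · ext y
        constructor
        · intro hy
          have h1 : ¬ Inr (H'.h.symm y) := by
            rw [← H'.bd, H'.h.apply_symm_apply]; exact hy
          rw [Inr] at h1
          push Not at h1
          obtain ⟨i, hi⟩ := h1
          by_cases h0 : i = 0
          · subst h0
            obtain ⟨t, ht⟩ := CV.exists_face 0 hi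
            refine Or.inr ⟨H.h t, ?_⟩
            rw [hΦ, H.h.symm_apply_apply, ht, H'.h.apply_symm_apply]
          · exact Or.inl ⟨_, ⟨i, h0, hi⟩, H'.h.apply_symm_apply y⟩
        · rintro (hy | ⟨x, rfl⟩)
          · exact hJ hy
          · rw [hΦ]
            exact (H'.bd _).2 fun h => h 0 (CV.face_self (n + 1) 0 _)
    have hbd : bd n H'.fc = ∑ i : Fin (n + 2), Finsupp.single
        ((⟨H'.h, H'.h.continuous⟩ : C(Dl (n + 2), Dk (n + 1))).comp (face (n + 1) i))
          (1 * (-1 : ℤ) ^ (i : ℕ)) := bd_single _ _ _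
    refine crit hcl hA hJ hne hat (ih H) ?_ ?_
    · rw [hbd]
      refine sum_mem fun i _ => SD.single_mem (fun x => ?_) _
      exact (H'.bd _).2 fun h => h i (CV.face_self (n + 1) i x)
    · have h0 : push Φ n H.fc = Finsupp.single
          ((⟨H'.h, H'.h.continuous⟩ : C(Dl (n + 2), Dk (n + 1))).comp (face (n + 1) 0)) 1 := by
        rw [HomPair.fc, push_single]
        congr 1
        ext x : 1
        change H'.h (face (n + 1) 0 (H.h.symm (H.h x))) = H'.h (face (n + 1) 0 x)
        rw [H.h.symm_apply_apply]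
      rw [hbd, h0, Fin.sum_univ_succ]
      simp only [Fin.val_zero, pow_zero, mul_one, add_sub_cancel_left]
      refine sum_mem fun i _ => SD.single_mem (fun x => ?_) _
      exact ⟨_, ⟨i.succ, Fin.succ_ne_zero i, CV.face_self (n + 1) i.succ x⟩, rfl⟩

end Vale.Agent.P178.H924
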