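import Vale.Agent.P178.H924.Re

/-! # The geometric realization of a simplicial set: normal forms of points -/

namespace Vale.Agent.P178.H924

open CategoryTheory Simplicial Opposite Topology
open Vale.Agent.P246.T (Dl face)

/-- interior points of the simplex -/
def Inr {k : ℕ} (t : Dl k) : Prop := ∀ i, t i ≠ 0

theorem am_apply {m n : ℕ} (f : ⦋m⦌ ⟶ ⦋n⦌) (t : Dl (m + 1)) (i : Fin (n + 1)) :
    am f t i = ∑ j ∈ Finset.univ.filter (fun j => f j = i), t j := by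
  classical
  change stdSimplex.map (S := ℝ) f t i = _
  rw [stdSimplex.map_coe, FunOnFinite.linearMap_apply_apply]

theorem am_ne_zero {m n : ℕ} (f : ⦋m⦌ ⟶ ⦋n⦌) (t : Dl (m + 1)) (i : Fin (n + 1)) :
    am f t i ≠ 0 ↔ ∃ j, f j = i ∧ t j ≠ 0 := by
  have h : (∑ j ∈ Finset.univ.filter (fun j => f j = i), t j = 0) ↔
      ∀ j ∈ Finset.univ.filter (fun j => f j = i), t j = 0 :=
    Finset.sum_eq_zero_iff_of_nonneg (fun j _ => t.2.1 j)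
  rw [am_apply, Ne, h]
  simp

theorem am_comp {l m n : ℕ} (f : ⦋l⦌ ⟶ ⦋m⦌) (g : ⦋m⦌ ⟶ ⦋n⦌) (t : Dl (l + 1)) :
    am (f ≫ g) t = am g (am f t) := by
  change stdSimplex.map (S := ℝ) _ t = stdSimplex.map (S := ℝ) _ (stdSimplex.map _ t)
  rw [stdSimplex.map_comp_apply]
  rfl

theorem am_id {m : ℕ} (t : Dl (m + 1)) : am (𝟙 ⦋m⦌) t = t := stdSimplex.map_id_apply t

theorem am_inr {m n : ℕ} (f : ⦋m⦌ ⟶ ⦋n⦌) [Epi f] {t : Dl (m + 1)} (ht : Inr t) : Inr (am f t) := by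
  intro i
  obtain ⟨j, hj⟩ := SimplexCategory.epi_iff_surjective.1 (inferInstance : Epi f) i
  exact (am_ne_zero f t i).2 ⟨j, hj, ht j⟩

theorem epi_of_inr {m n : ℕ} (f : ⦋m⦌ ⟶ ⦋n⦌) {t : Dl (m + 1)} (h : Inr (am f t)) : Epi f := by
  refine SimplexCategory.epi_iff_surjective.2 fun i => ?_
  obtain ⟨j, hj, -⟩ := (am_ne_zero f t i).1 (h i)
  exact ⟨j, hj⟩

theorem am_injective {m n : ℕ} (f : ⦋m⦌ ⟶ ⦋n⦌) [hf : Mono f] : Function.Injective (am f) := by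
  intro s t h
  have hi := SimplexCategory.mono_iff_injective.1 hf
  refine Subtype.ext (funext fun j => ?_)
  have h1 := congrArg (fun u : Dl (n + 1) => u (f j)) h
  have h2 : (Finset.univ.filter fun k => f k = f j) = {j} := by
    ext k
    simp only [Finset.mem_filter, Finset.mem_univ, true_and, Finset.mem_singleton]
    exact ⟨fun h => hi h, fun h => by rw [h]⟩
  simp only [am_apply, h2, Finset.sum_singleton] at h1
  exact h1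

/-- every point of a simplex is an interior point of a face -/
theorem exists_inr : ∀ {n : ℕ} (t : Dl (n + 1)), ∃ (k : ℕ) (δ : ⦋k⦌ ⟶ ⦋n⦌) (_ : Mono δ)
    (s : Dl (k + 1)), Inr s ∧ am δ s = t := by
  intro n
  induction n with
  | zero =>
    intro t
    refine ⟨0, 𝟙 _, inferInstance, t, ?_, am_id t⟩
    intro i
    have h : ∑ i, t i = 1 := t.2.2
    rw [Fin.sum_univ_one] at h
    rw [show i = 0 from Fin.ext (by omega), h]
    exact one_ne_zero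
  | succ n ih =>
    intro t
    by_cases ht : Inr t
    · exact ⟨n + 1, 𝟙 _, inferInstance, t, ht, am_id t⟩
    · rw [Inr] at ht
      push Not at ht
      obtain ⟨i, hi⟩ := ht
      obtain ⟨y, rfl⟩ := Vale.Agent.P246.T.CV.exists_face i hi
      obtain ⟨k, δ, hδ, s, hs, rfl⟩ := ih y
      refine ⟨k, δ ≫ SimplexCategory.δ i, inferInstance, s, hs, ?_⟩
      rw [am_comp]
      rfl

/-- monomorphisms with the same range are equal -/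
theorem mono_unique {k k' n : ℕ} (δ : ⦋k⦌ ⟶ ⦋n⦌) (δ' : ⦋k'⦌ ⟶ ⦋n⦌) [h1 : Mono δ] [h2 : Mono δ']
    (h : ∀ i, (∃ j, δ j = i) ↔ ∃ j, δ' j = i) : ∃ e : k = k', δ = eqToHom (by rw [e]) ≫ δ' := by
  have i1 : Function.Injective (ConcreteCategory.hom δ) := SimplexCategory.mono_iff_injective.1 h1
  have i2 : Function.Injective (ConcreteCategory.hom δ') := SimplexCategory.mono_iff_injective.1 h2
  have hr : Set.range δ = Set.range δ' := Set.ext h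
  have hc : k + 1 = k' + 1 := by
    have := congrArg Set.ncard hr
    rw [Set.ncard_range_of_injective i1, Set.ncard_range_of_injective i2] at this
    simpa using this
  obtain rfl : k = k' := by omega
  refine ⟨rfl, ?_⟩
  rw [eqToHom_refl, Category.id_comp]
  have m1 : StrictMono δ := δ.toOrderHom.monotone.strictMono_of_injective i1
  have m2 : StrictMono δ' := δ'.toOrderHom.monotone.strictMono_of_injective i2
  have := (StrictMono.range_inj m1 m2).1 hr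
  ext j : 3
  exact congrFun this j

/-- `(σ, u)` is the normal form of `(x, t)` -/
def Nf (X : SSet.{0}) {n : ℕ} (x : X _⦋n⦌) (t : Dl (n + 1)) {m : ℕ} (σ : X _⦋m⦌) (u : Dl (m + 1)) :
    Prop :=
  σ ∈ X.nonDegenerate m ∧ Inr u ∧ ∃ (k : ℕ) (δ : ⦋k⦌ ⟶ ⦋n⦌) (_ : Mono δ) (t' : Dl (k + 1))
    (s : ⦋k⦌ ⟶ ⦋m⦌) (_ : Epi s), Inr t' ∧ am δ t' = t ∧ X.map δ.op x = X.map s.op σ ∧ am s t' = u

variable {X : SSet.{0}}

theorem exists_nf {n : ℕ} (x : X _⦋n⦌) (t : Dl (n + 1)) :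
    ∃ (m : ℕ) (σ : X _⦋m⦌) (u : Dl (m + 1)), Nf X x t σ u := by
  obtain ⟨k, δ, hδ, t', ht, rfl⟩ := exists_inr t
  obtain ⟨m, s, hs, ⟨σ, hσ⟩, h⟩ := X.exists_nonDegenerate (X.map δ.op x)
  exact ⟨m, σ, am s t', hσ, am_inr s ht, k, δ, hδ, t', s, hs, ht, rfl, h, rfl⟩

theorem Nf.unique {n : ℕ} {x : X _⦋n⦌} {t : Dl (n + 1)} {m : ℕ} {σ : X _⦋m⦌} {u : Dl (m + 1)}
    {m' : ℕ} {σ' : X _⦋m'⦌} {u' : Dl (m' + 1)} (h : Nf X x t σ u) (h' : Nf X x t σ' u') :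
    (⟨m, σ, u⟩ : Σ m, X _⦋m⦌ × Dl (m + 1)) = ⟨m', σ', u'⟩ := by
  obtain ⟨hσ, -, k, δ, hδ, t₁, s, hs, ht₁, e1, e2, rfl⟩ := h
  obtain ⟨hσ', -, k', δ', hδ', t₁', s', hs', ht₁', e1', e2', rfl⟩ := h'
  obtain ⟨e, hδe⟩ := mono_unique δ δ' fun i => by
    have h1 := am_ne_zero δ t₁ i
    have h2 := am_ne_zero δ' t₁' i
    rw [e1] at h1
    rw [e1'] at h2
    constructor
    · rintro ⟨j, hj⟩
      obtain ⟨j', hj', -⟩ := h2.1 (h1.2 ⟨j, hj, ht₁ j⟩)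
      exact ⟨j', hj'⟩
    · rintro ⟨j, hj⟩
      obtain ⟨j', hj', -⟩ := h1.1 (h2.2 ⟨j, hj, ht₁' j⟩)
      exact ⟨j', hj'⟩
  subst e
  rw [eqToHom_refl, Category.id_comp] at hδe
  subst hδe
  obtain rfl : t₁ = t₁' := am_injective δ (e1.trans e1'.symm)
  have hm : m = m' := X.unique_nonDegenerate_dim (X.map δ.op x) s ⟨σ, hσ⟩ e2 s' ⟨σ', hσ'⟩ e2'
  subst hm
  have hσe := X.unique_nonDegenerate_simplex (X.map δ.op x) s ⟨σ, hσ⟩ e2 s' ⟨σ', hσ'⟩ e2'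
  have hse := X.unique_nonDegenerate_map (X.map δ.op x) s ⟨σ, hσ⟩ e2 s' ⟨σ', hσ'⟩ e2'
  obtain rfl : σ = σ' := congrArg Subtype.val hσe
  subst hse
  rfl

theorem Nf.map {m n : ℕ} (g : ⦋m⦌ ⟶ ⦋n⦌) {x : X _⦋n⦌} {t : Dl (m + 1)} {l : ℕ} {σ : X _⦋l⦌}
    {u : Dl (l + 1)} (h : Nf X (X.map g.op x) t σ u) : Nf X x (am g t) σ u := by
  obtain ⟨hσ, hu, k, δ, hδ, t', s, hs, ht', rfl, e2, rfl⟩ := h
  obtain ⟨j, π, hπ, ε, hε, hf⟩ : ∃ (j : ℕ) (π : ⦋k⦌ ⟶ ⦋j⦌) (_ : Epi π) (ε : ⦋j⦌ ⟶ ⦋n⦌) (_ : Mono ε),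
      π ≫ ε = δ ≫ g :=
    ⟨_, Limits.factorThruImage (δ ≫ g), inferInstance, Limits.image.ι (δ ≫ g), inferInstance,
      Limits.image.fac _⟩
  obtain ⟨m', r, hr, ⟨τ, hτ⟩, h⟩ := X.exists_nonDegenerate (X.map ε.op x)
  have e3 : X.map δ.op (X.map g.op x) = X.map (π ≫ r).op τ := by
    have h1 : X.map δ.op (X.map g.op x) = X.map (δ ≫ g).op x := by
      rw [op_comp, Functor.map_comp]; rfl
    rw [h1, ← hf, op_comp, op_comp, Functor.map_comp, Functor.map_comp]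
    change X.map π.op (X.map ε.op x) = _
    rw [h]
    rfl
  have hm : l = m' := X.unique_nonDegenerate_dim _ s ⟨σ, hσ⟩ e2 (π ≫ r) ⟨τ, hτ⟩ e3
  subst hm
  have hσe := X.unique_nonDegenerate_simplex _ s ⟨σ, hσ⟩ e2 (π ≫ r) ⟨τ, hτ⟩ e3
  have hse := X.unique_nonDegenerate_map _ s ⟨σ, hσ⟩ e2 (π ≫ r) ⟨τ, hτ⟩ e3
  obtain rfl : σ = τ := congrArg Subtype.val hσe
  subst hse
  refine ⟨hσ, hu, j, ε, hε, am π t', r, hr, am_inr π ht', ?_, h, ?_⟩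
  · rw [← am_comp, hf, am_comp]
  · rw [← am_comp]

/-- the normal form of a point -/
theorem exists_nfFun (X : SSet.{0}) : ∃ f : Re X → Σ m, X _⦋m⦌ × Dl (m + 1),
    ∀ (n : ℕ) (x : X _⦋n⦌) (t : Dl (n + 1)), Nf X x t (f (chr X x t)).2.1 (f (chr X x t)).2.2 := by
  choose m σ u h using fun (n : ℕ) (x : X _⦋n⦌) (t : Dl (n + 1)) => exists_nf x t
  obtain ⟨f, hf⟩ := exists_fun (X := X) (Z := Σ m, X _⦋m⦌ × Dl (m + 1))
    (fun n x t => ⟨m n x t, σ n x t, u n x t⟩) fun a b g x t => by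
      exact (Nf.map g (h a (X.map g.op x) t)).unique (h b x (am g t))
  exact ⟨f, fun n x t => by rw [hf]; exact h n x t⟩

theorem chr_nf {n : ℕ} {x : X _⦋n⦌} {t : Dl (n + 1)} {m : ℕ} {σ : X _⦋m⦌} {u : Dl (m + 1)}
    (h : Nf X x t σ u) : chr X x t = chr X σ u := by
  obtain ⟨hσ, hu, k, δ, hδ, t', s, hs, ht', rfl, e2, rfl⟩ := h
  have h1 := chr_map X δ x
  have h2 := chr_map X s σ
  rw [e2, h2] at h1
  exact (congrArg (fun f : C(Dl (k + 1), Re X) => f t') h1).symm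

theorem nf_of_chr_eq {n : ℕ} {x : X _⦋n⦌} {t : Dl (n + 1)} {n' : ℕ} {x' : X _⦋n'⦌}
    {t' : Dl (n' + 1)} (h : chr X x t = chr X x' t') {m : ℕ} {σ : X _⦋m⦌} {u : Dl (m + 1)}
    (h' : Nf X x t σ u) : Nf X x' t' σ u := by
  obtain ⟨f, hf⟩ := exists_nfFun X
  have h1 := hf n x t
  have h2 := hf n' x' t'
  have h3 := h1.unique h'
  rw [← h] at h2
  generalize f (chr X x t) = q at h1 h2 h3
  obtain ⟨a, b, c⟩ := q
  cases h3
  exact h2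

theorem nf_self {m : ℕ} {σ : X _⦋m⦌} (hσ : σ ∈ X.nonDegenerate m) {u : Dl (m + 1)} (hu : Inr u) :
    Nf X σ u σ u :=
  ⟨hσ, hu, m, 𝟙 _, inferInstance, u, 𝟙 _, inferInstance, hu, am_id u, rfl, am_id u⟩

theorem chr_inj {m : ℕ} {σ : X _⦋m⦌} (hσ : σ ∈ X.nonDegenerate m) {u : Dl (m + 1)} (hu : Inr u)
    {m' : ℕ} {σ' : X _⦋m'⦌} (hσ' : σ' ∈ X.nonDegenerate m') {u' : Dl (m' + 1)} (hu' : Inr u')
    (h : chr X σ u = chr X σ' u') :
    (⟨m, σ, u⟩ : Σ m, X _⦋m⦌ × Dl (m + 1)) = ⟨m', σ', u'⟩ :=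
  (nf_of_chr_eq h (nf_self hσ hu)).unique (nf_self hσ' hu')

theorem Nf.le {n : ℕ} {x : X _⦋n⦌} {t : Dl (n + 1)} {m : ℕ} {σ : X _⦋m⦌} {u : Dl (m + 1)}
    (h : Nf X x t σ u) : m ≤ n := by
  obtain ⟨hσ, hu, k, δ, hδ, t', s, hs, ht', rfl, e2, rfl⟩ := h
  exact (SimplexCategory.len_le_of_epi s).trans (SimplexCategory.len_le_of_mono δ)

end Vale.Agent.P178.H924
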