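import Vale.Agent.P246.T.CV
import Mathlib.AlgebraicTopology.SimplicialSet.TopAdj
import Mathlib.AlgebraicTopology.SimplicialSet.NonDegenerateSimplices
import Mathlib.AlgebraicTopology.SimplicialSet.Skeleton

/-! # The geometric realization of a simplicial set: points, topology, maps -/

namespace Vale.Agent.P178.H924

open CategoryTheory Simplicial Opposite Topology
open Vale.Agent.P246.T (Dl face)

/-- The geometric realization of the simplicial set `X`. -/
abbrev Re (X : SSet.{0}) : Type := (SSet.toTop.obj X : TopCat.{0})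

/-- the affine map of topological simplices induced by a map of ordinals -/
noncomputable def am {m n : ℕ} (f : ⦋m⦌ ⟶ ⦋n⦌) : C(Dl (m + 1), Dl (n + 1)) :=
  ⟨stdSimplex.map f, stdSimplex.continuous_map _⟩

/-- The characteristic map of the simplex `x`. -/
noncomputable def chr (X : SSet.{0}) {n : ℕ} (x : X _⦋n⦌) : C(Dl (n + 1), Re X) :=
  TopCat.toSSetObjEquiv (SSet.toTop.obj X) (op ⦋n⦌) ((sSetTopAdj.unit.app X).app (op ⦋n⦌) x)

theorem chr_map (X : SSet.{0}) {m n : ℕ} (f : ⦋m⦌ ⟶ ⦋n⦌) (x : X _⦋n⦌) :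
    chr X (X.map f.op x) = (chr X x).comp (am f) := by
  ext z
  rw [chr, ContinuousMap.comp_apply]
  have h := congrArg (fun g => g x) ((sSetTopAdj.unit.app X).naturality f.op)
  have h' : (sSetTopAdj.unit.app X).app (op ⦋m⦌) (X.map f.op x) =
    (TopCat.toSSet.obj (SSet.toTop.obj X)).map f.op ((sSetTopAdj.unit.app X).app (op ⦋n⦌) x) := 
    NatTrans.naturality_apply _ _ _
  rw [h']
  exact TopCat.toSSetObjEquiv_naturality_apply f _ z

/-- a compatible family of maps on the simplices -/
structure Fam (X : SSet.{0}) (Y : Type) [TopologicalSpace Y] where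
  f : ∀ n : ℕ, X _⦋n⦌ → C(Dl (n + 1), Y)
  nat : ∀ (m n : ℕ) (g : ⦋m⦌ ⟶ ⦋n⦌) (x : X _⦋n⦌), f m (X.map g.op x) = (f n x).comp (am g)

variable {X : SSet.{0}} {Y : Type} [TopologicalSpace Y]

/-- the simplicial map to the singular complex -/
noncomputable def Fam.toSing (F : Fam X Y) : X ⟶ TopCat.toSSet.obj (TopCat.of Y) where
  app n := TypeCat.ofHom (fun x =>
    (TopCat.toSSetObjEquiv (TopCat.of Y) n).symm (F.f n.unop.len x))
  naturality := by
    intro n m g
    ext x
    have := F.nat m.unop.len n.unop.len g.unop x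
    change (TopCat.toSSetObjEquiv (TopCat.of Y) m).symm (F.f m.unop.len (X.map g.unop.op x)) =
      (TopCat.toSSet.obj (TopCat.of Y)).map g.unop.op 
       ((TopCat.toSSetObjEquiv (TopCat.of Y) n).symm (F.f n.unop.len x))
    rw [this]
    rfl

/-- the map from the realization -/
noncomputable def Fam.desc (F : Fam X Y) : C(Re X, Y) :=
  ((sSetTopAdj.homEquiv X (TopCat.of Y)).symm F.toSing).hom

theorem Fam.desc_chr (F : Fam X Y) {n : ℕ} (x : X _⦋n⦌) : F.desc.comp (chr X x) = F.f n x := by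
  have h : sSetTopAdj.unit.app X ≫ TopCat.toSSet.map
    ((sSetTopAdj.homEquiv X (TopCat.of Y)).symm F.toSing) = F.toSing :=
    (Adjunction.homEquiv_unit _ _ _ _).symm.trans (Equiv.apply_symm_apply _ _)
  have h2 := congrArg (fun g => TopCat.toSSetObjEquiv (TopCat.of Y) (op ⦋n⦌) (g.app (op ⦋n⦌) x)) h
  exact h2

theorem Fam.uniq {f g : C(Re X, Y)} (h : ∀ (n : ℕ) (x : X _⦋n⦌), f.comp (chr X x) = g.comp (chr X x)) :
    f = g := by
  have : TopCat.ofHom f = TopCat.ofHom g := by
    apply (sSetTopAdj.homEquiv X (TopCat.of Y)).injective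
    rw [Adjunction.homEquiv_unit, Adjunction.homEquiv_unit]
    ext n x
    apply (TopCat.toSSetObjEquiv (TopCat.of Y) n).injective
    exact h n.unop.len x
  exact congrArg TopCat.Hom.hom this

/-! ### The topology -/

/-- every point lies in the image of a simplex -/
theorem exists_chr (p : Re X) : ∃ (n : ℕ) (x : X _⦋n⦌) (t : Dl (n + 1)), chr X x t = p := by
  classical
  by_contra hp
  let _ : TopologicalSpace Prop := ⊤
  let f : C(Re X, Prop) := ⟨fun _ => True, continuous_top⟩
  let g : C(Re X, Prop) := ⟨fun q => q ≠ p, continuous_top⟩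
  have h : f = g := Fam.uniq fun n x => by
    ext t
    change True ↔ chr X x t ≠ p
    exact ⟨fun _ h => hp ⟨n, x, t, h⟩, fun _ => trivial⟩
  have h2 : f p = g p := by rw [h]
  have h3 : True = (p ≠ p) := h2
  simp at h3

/-- functions on the realization, without continuity -/
theorem exists_fun {Z : Type} (F : ∀ n : ℕ, X _⦋n⦌ → Dl (n + 1) → Z)
    (hF : ∀ (m n : ℕ) (g : ⦋m⦌ ⟶ ⦋n⦌) (x : X _⦋n⦌) (t : Dl (m + 1)),
      F m (X.map g.op x) t = F n x (am g t)) :
    ∃ f : Re X → Z, ∀ (n : ℕ) (x : X _⦋n⦌) (t : Dl (n + 1)), f (chr X x t) = F n x t := by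
  let _ : TopologicalSpace Z := ⊤
  let G : Fam X Z :=
    { f := fun n x => ⟨F n x, continuous_top⟩
      nat := fun m n g x => ContinuousMap.ext fun t => hF m n g x t }
  exact ⟨G.desc, fun n x t => congrArg (fun u : C(Dl (n + 1), Z) => u t) (G.desc_chr x)⟩

theorem isOpen_iff {U : Set (Re X)} :
    IsOpen U ↔ ∀ (n : ℕ) (x : X _⦋n⦌), IsOpen (chr X x ⁻¹' U) := by
  classical
  refine ⟨fun h n x => h.preimage (chr X x).continuous, fun h => ?_⟩
  let G : Fam X Prop :=
    { f := fun n x => ⟨fun t => chr X x t ∈ U, continuous_Prop.2 (h n x)⟩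
      nat := fun m n g x => ContinuousMap.ext fun t => by
        change (chr X (X.map g.op x) t ∈ U) = (chr X x (am g t) ∈ U)
        rw [chr_map]; rfl }
  have hG : ∀ p, G.desc p = (p ∈ U) := fun p => by
    obtain ⟨n, x, t, rfl⟩ := exists_chr p
    exact congrArg (fun u : C(Dl (n + 1), Prop) => u t) (G.desc_chr x)
  have : U = {p | G.desc p} := by ext p; rw [Set.mem_ofPred_eq, hG]
  rw [this]
  exact continuous_Prop.1 G.desc.continuous

theorem isClosed_iff {C : Set (Re X)} :
    IsClosed C ↔ ∀ (n : ℕ) (x : X _⦋n⦌), IsClosed (chr X x ⁻¹' C) := by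
  rw [← isOpen_compl_iff, isOpen_iff]
  exact forall_congr' fun n => forall_congr' fun x => by rw [Set.preimage_compl, isOpen_compl_iff]

end Vale.Agent.P178.H924
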