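import Vale.Agent.P178.H924.Nf
import Vale.Agent.P246.T.CL

/-! # The skeleta of the geometric realization -/

namespace Vale.Agent.P178.H924

open CategoryTheory Simplicial Opposite Topology Set
open Vale.Agent.P246.T (Dl face)

variable (X : SSet.{0})

/-- the union of the images of the simplices of dimension less than `n` -/
def Bs (n : ℕ) : Set (Re X) := {p | ∃ (k : ℕ) (_ : k < n) (x : X _⦋k⦌) (t : Dl (k + 1)), chr X x t = p}

variable {X}

theorem chr_mem {n k : ℕ} (h : k < n) (x : X _⦋k⦌) (t : Dl (k + 1)) : chr X x t ∈ Bs X n :=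
  ⟨k, h, x, t, rfl⟩

theorem Bs_mono {m n : ℕ} (h : m ≤ n) : Bs X m ⊆ Bs X n := by
  rintro _ ⟨k, hk, x, t, rfl⟩
  exact chr_mem (by omega) x t

theorem Bs_zero : Bs X 0 = ∅ := by
  ext p
  simp only [Set.mem_empty_iff_false, iff_false]
  rintro ⟨k, hk, -⟩
  omega

theorem lt_of_nf {n k : ℕ} {x : X _⦋k⦌} {t : Dl (k + 1)} {m : ℕ} {σ : X _⦋m⦌} {u : Dl (m + 1)}
    (h : Nf X x t σ u) (h' : chr X x t ∈ Bs X n) : m < n := by
  obtain ⟨l, hl, y, s, he⟩ := h'
  exact (nf_of_chr_eq he.symm h).le.trans_lt hl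

theorem chr_mem_iff {m : ℕ} {σ : X _⦋m⦌} (hσ : σ ∈ X.nonDegenerate m) {u : Dl (m + 1)} (hu : Inr u)
    (n : ℕ) : chr X σ u ∈ Bs X n ↔ m < n :=
  ⟨lt_of_nf (nf_self hσ hu), fun h => chr_mem h σ u⟩

theorem chr_degenerate {m : ℕ} {x : X _⦋m⦌} (hx : x ∈ X.degenerate m) (t : Dl (m + 1)) :
    chr X x t ∈ Bs X m := by
  obtain ⟨k, hk, f, y, rfl⟩ := hx
  rw [chr_map]
  exact chr_mem hk y _

theorem face_eq_am {n : ℕ} (i : Fin (n + 2)) (t : Dl (n + 1)) :
    face (n + 1) i t = am (SimplexCategory.δ i) t := rfl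

theorem chr_bdry {m : ℕ} (x : X _⦋m⦌) {t : Dl (m + 1)} (ht : ¬ Inr t) : chr X x t ∈ Bs X m := by
  rw [Inr] at ht
  push Not at ht
  obtain ⟨i, hi⟩ := ht
  cases m with
  | zero =>
    have h : ∑ i, t i = 1 := t.2.2
    rw [Fin.sum_univ_one] at h
    rw [show i = 0 from Fin.ext (by omega), h] at hi
    exact absurd hi one_ne_zero
  | succ m =>
    obtain ⟨y, rfl⟩ := Vale.Agent.P246.T.CV.exists_face i hi
    rw [face_eq_am]
    have h := chr_map X (SimplexCategory.δ i) x
    have h2 := congrArg (fun f : C(Dl (m + 1), Re X) => f y) h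
    have h3 : chr X (X.map (SimplexCategory.δ i).op x) y = chr X x (am (SimplexCategory.δ i) y) := h2
    rw [← h3]
    exact chr_mem (Nat.lt_succ_self m) _ y

/-- the closedness criterion -/
theorem isClosed_of {n : ℕ} {C : Set (Re X)} (hC : C ⊆ Bs X n)
    (h : ∀ k < n, ∀ x : X _⦋k⦌, IsClosed (chr X x ⁻¹' C)) : IsClosed C := by
  rw [isClosed_iff]
  intro m y
  -- the finite union
  have key : chr X y ⁻¹' C = ⋃ (j : Fin (m + 1)) (δ : ⦋(j : ℕ)⦌ ⟶ ⦋m⦌)
      (_ : ∃ (k : ℕ) (_ : k < n) (s : ⦋(j : ℕ)⦌ ⟶ ⦋k⦌) (σ : X _⦋k⦌), X.map δ.op y = X.map s.op σ),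
      am δ '' (chr X (X.map δ.op y) ⁻¹' C) := by
    ext t
    simp only [Set.mem_iUnion]
    constructor
    · intro ht
      obtain ⟨k, σ, u, hN⟩ := exists_nf y t
      have hk := lt_of_nf hN (hC ht)
      obtain ⟨hσ, hu, j, δ, hδ, t', s, hs, ht', rfl, e2, rfl⟩ := hN
      refine ⟨⟨j, Nat.lt_succ_of_le (SimplexCategory.len_le_of_mono δ)⟩, δ, ⟨k, hk, s, σ, e2⟩, t', ?_, rfl⟩
      rw [Set.mem_preimage, chr_map]
      exact ht
    · rintro ⟨j, δ, -, t', ht', rfl⟩
      rw [Set.mem_preimage, chr_map] at ht'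
      exact ht'
  rw [key]
  refine isClosed_iUnion_of_finite fun j => ?_
  refine isClosed_iUnion_of_finite fun δ => ?_
  refine isClosed_iUnion_of_finite fun hj => ?_
  obtain ⟨k, hk, s, σ, e⟩ := hj
  have h1 : IsClosed (chr X (X.map δ.op y) ⁻¹' C) := by
    rw [e, chr_map]
    exact (h k hk σ).preimage (am s).continuous
  exact (h1.isCompact.image (am δ).continuous).isClosed

theorem isClosed_Bs (n : ℕ) : IsClosed (Bs X n) :=
  isClosed_of subset_rfl fun k hk x => by
    have : chr X x ⁻¹' (Bs X n) = univ := Set.eq_univ_of_forall fun t => chr_mem hk x t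
    rw [this]; exact isClosed_univ

/-- relatively open subsets of the skeleta -/
theorem exists_open {n : ℕ} {V : Set (Re X)} (hV : V ⊆ Bs X n)
    (h : ∀ k < n, ∀ x : X _⦋k⦌, IsOpen (chr X x ⁻¹' V)) :
    ∃ O : Set (Re X), IsOpen O ∧ O ∩ Bs X n = V := by
  refine ⟨(Bs X n \ V)ᶜ, ?_, ?_⟩
  · rw [isOpen_compl_iff]
    refine isClosed_of Set.sdiff_subset fun k hk x => ?_
    have : chr X x ⁻¹' (Bs X n \ V) = (chr X x ⁻¹' V)ᶜ := by
      ext t
      simp only [Set.mem_preimage, Set.mem_sdiff, Set.mem_compl_iff]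
      exact ⟨fun h => h.2, fun h => ⟨chr_mem hk x t, h⟩⟩
    rw [this]
    exact (h k hk x).isClosed_compl
  · ext p
    simp only [Set.mem_inter_iff, Set.mem_compl_iff, Set.mem_sdiff, not_and, not_not]
    exact ⟨fun h => h.1 h.2, fun h => ⟨fun _ => h, hV h⟩⟩

/-- functions on the skeleta -/
theorem continuous_of {n : ℕ} {Z : Type*} [TopologicalSpace Z] {f : Bs X n → Z}
    (h : ∀ (k : ℕ) (hk : k < n) (x : X _⦋k⦌),
      Continuous fun t : Dl (k + 1) => f ⟨chr X x t, chr_mem hk x t⟩) : Continuous f := by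
  rw [continuous_iff_isClosed]
  intro C hC
  have h1 : IsClosed (Subtype.val '' (f ⁻¹' C)) := by
    refine isClosed_of (n := n) ?_ fun k hk x => ?_
    · rintro _ ⟨p, -, rfl⟩; exact p.2
    · have : chr X x ⁻¹' (Subtype.val '' (f ⁻¹' C)) =
          (fun t : Dl (k + 1) => f ⟨chr X x t, chr_mem hk x t⟩) ⁻¹' C := by
        ext t
        constructor
        · rintro ⟨p, hp, he⟩
          have : p = ⟨chr X x t, chr_mem hk x t⟩ := Subtype.ext he
          rw [this] at hp
          exact hp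
        · intro ht
          exact ⟨⟨chr X x t, chr_mem hk x t⟩, ht, rfl⟩
      rw [this]
      exact hC.preimage (h k hk x)
  have h2 := h1.preimage (continuous_subtype_val (p := fun p => p ∈ Bs X n))
  rwa [Set.preimage_image_eq _ Subtype.val_injective] at h2

/-- homotopies on the skeleta -/
theorem continuous_prod_of {n : ℕ} {Z : Type*} [TopologicalSpace Z] {f : unitInterval × Bs X n → Z}
    (h : ∀ (k : ℕ) (hk : k < n) (x : X _⦋k⦌),
      Continuous fun q : unitInterval × Dl (k + 1) => f (q.1, ⟨chr X x q.2, chr_mem hk x q.2⟩)) :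
    Continuous f := by
  have h1 : ∀ p : Bs X n, Continuous fun t : unitInterval => f (t, p) := by
    rintro ⟨p, k, hk, x, t, rfl⟩
    exact (h k hk x).comp (by fun_prop : Continuous fun s : unitInterval => (s, t))
  let F : Bs X n → C(unitInterval, Z) := fun p => ⟨fun t => f (t, p), h1 p⟩
  have hF : Continuous F := by
    refine continuous_of fun k hk x => ?_
    let G : C(Dl (k + 1) × unitInterval, Z) :=
      ⟨fun q => f (q.2, ⟨chr X x q.1, chr_mem hk x q.1⟩),
        (h k hk x).comp (by fun_prop : Continuous fun q : Dl (k + 1) × unitInterval => (q.2, q.1))⟩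
    exact G.curry.continuous
  have h2 := ContinuousMap.continuous_uncurry_of_continuous ⟨F, hF⟩
  exact h2.comp (by fun_prop : Continuous fun q : unitInterval × Bs X n => (q.2, q.1))

end Vale.Agent.P178.H924
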